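import Vale.Agent.P097.H737.Tr2
import Vale.Agent.P097.H791.Iso2

/-! # P097 / ALG-LI: at an isotropic end of exponent `3` there is no term `z ^ β`, `0 < β < 2`. -/

set_option linter.all false

open Complex Metric Filter Topology Set Bornology

namespace Vale.Agent.P097.H737

open Vale.Agent.P097.NZ Vale.Agent.P097.Alg Vale.Agent.P097.H357 Vale.Agent.P097.H147

section scale

variable {ι : ℂ} {F : ℂ → ℂ}

theorem sc_tendsto (ι : ℂ) : Tendsto (fun u : ℂ => u / (2 * ι)) (𝓝 0) (𝓝 0) := by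
  have h1 : Continuous (fun u : ℂ => u / (2 * ι)) := by fun_prop
  have := h1.tendsto 0
  simpa using this

theorem sc_an (ι : ℂ) (hF : AnalyticAt ℂ F 0) : AnalyticAt ℂ (fun u => F (u / (2 * ι))) 0 := by
  refine hF.comp_of_eq ?_ (by simp)
  exact analyticAt_id.div_const

theorem sc_bigO (ι : ℂ) (hF : F =O[𝓝 0] fun y : ℂ => y ^ 5) :
    (fun u => F (u / (2 * ι))) =O[𝓝 0] fun u : ℂ => u ^ 5 := by
  have h1 := hF.comp_tendsto (sc_tendsto ι)
  refine h1.trans ?_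
  have h2 : ((fun y : ℂ => y ^ 5) ∘ fun u : ℂ => u / (2 * ι)) =
      fun u : ℂ => (1 / (2 * ι)) ^ 5 * u ^ 5 := by
    funext u
    simp only [Function.comp_apply]
    ring
  rw [h2]
  exact Asymptotics.isBigO_const_mul_self _ _ _

theorem sc_back (hι : ι ≠ 0) (h : ∀ᶠ u in 𝓝 (0 : ℂ), F (u / (2 * ι)) = 0) :
    ∀ᶠ y in 𝓝 (0 : ℂ), F y = 0 := by
  have h1 : Tendsto (fun y : ℂ => 2 * ι * y) (𝓝 0) (𝓝 0) := by
    have h1 : Continuous (fun y : ℂ => 2 * ι * y) := by fun_prop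
    have := h1.tendsto 0
    simpa using this
  filter_upwards [h1.eventually h] with y hy
  have : 2 * ι * y / (2 * ι) = y := by field_simp
  rwa [this] at hy

theorem sc_odd (ι : ℂ) (h : ∀ᶠ y in 𝓝 (0 : ℂ), F (-y) = -F y) :
    ∀ᶠ u in 𝓝 (0 : ℂ), F (-u / (2 * ι)) = -F (u / (2 * ι)) := by
  filter_upwards [(sc_tendsto ι).eventually h] with u hu
  rw [neg_div]
  exact hu

end scale

theorem sin3_iter : iteratedDeriv 1 (fun y : ℂ => 2 / 3 * Complex.sin y ^ 3) 0 = 0 ∧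
    iteratedDeriv 3 (fun y : ℂ => 2 / 3 * Complex.sin y ^ 3) 0 = 4 := by
  have d1 : deriv (fun y : ℂ => 2 / 3 * Complex.sin y ^ 3) =
      fun y => 2 * Complex.sin y ^ 2 * Complex.cos y := by
    funext y
    have h := ((Complex.hasDerivAt_sin y).pow 3).const_mul (2 / 3 : ℂ)
    have h2 : HasDerivAt (fun y : ℂ => 2 / 3 * Complex.sin y ^ 3) _ y := h
    rw [h2.deriv]
    push_cast
    ring
  have d2 : deriv (fun y : ℂ => 2 * Complex.sin y ^ 2 * Complex.cos y) =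
      fun y => 4 * Complex.sin y * Complex.cos y ^ 2 - 2 * Complex.sin y ^ 3 := by
    funext y
    have h := ((((Complex.hasDerivAt_sin y).pow 2).const_mul (2 : ℂ)).mul (Complex.hasDerivAt_cos y))
    have h2 : HasDerivAt (fun y : ℂ => 2 * Complex.sin y ^ 2 * Complex.cos y) _ y := h
    rw [h2.deriv]
    push_cast
    simp only [Pi.pow_apply]
    ring
  have d3 : deriv (fun y : ℂ => 4 * Complex.sin y * Complex.cos y ^ 2 - 2 * Complex.sin y ^ 3) 0 =
      4 := by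
    have h := ((((Complex.hasDerivAt_sin 0).const_mul (4 : ℂ)).mul
      ((Complex.hasDerivAt_cos 0).pow 2)).sub (((Complex.hasDerivAt_sin 0).pow 3).const_mul (2 : ℂ)))
    have h2 : HasDerivAt (fun y : ℂ => 4 * Complex.sin y * Complex.cos y ^ 2 - 2 * Complex.sin y ^ 3)
      _ 0 := h
    rw [h2.deriv]
    simp
  constructor
  · rw [iteratedDeriv_one, d1]
    simp
  · rw [iteratedDeriv_succ, iteratedDeriv_succ, iteratedDeriv_one, d1, d2, d3]

section main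

variable {s : ℂ} {N : ℕ} {R : ℂ → ℂ} {ε : ℝ} {H : ℂ × ℂ → ℂ}

theorem hiota (E : EndI s N (3 * N) R ε) : s * I = I ∨ s * I = -I := by
  rcases E.hs with rfl | rfl
  · left; ring
  · right; ring

theorem E_an (E : EndI s N (3 * N) R ε) : AnalyticAt ℂ R 0 :=
  E.dR.analyticAt (isOpen_ball.mem_nhds (mem_ball_self E.hε))

theorem E_ne (E : EndI s N (3 * N) R ε) : R 0 ≠ 0 := E.R0 0 (mem_ball_self E.hε)

/-- the law, literally -/
def LawE0 (s : ℂ) (N : ℕ) (R : ℂ → ℂ) (H : ℂ × ℂ → ℂ) : Prop :=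
  ∀ᶠ p in 𝓝 ((0, 0) : ℂ × ℂ),
      Complex.exp (s * I * ((3 * N : ℤ) / N) * (p.2 * ri s N (3 * N) R p)) *
        R (Ti s N (3 * N) R p).1 * H (Ti s N (3 * N) R p) = R p.1 * H p

theorem odd_axis (hodd : ∀ᶠ p in 𝓝 ((0, 0) : ℂ × ℂ), H (p.1, -p.2) = -H p) :
    ∀ᶠ y in 𝓝 (0 : ℂ), H (0, -y) = -H (0, y) := by
  have h1 : Tendsto (fun y : ℂ => ((0 : ℂ), y)) (𝓝 0) (𝓝 (0, 0)) :=
    tendsto_const_nhds.prodMk_nhds tendsto_id
  exact h1.eventually hodd

/-- the zeroth coefficient -/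
theorem H_zero (A : RootA) (E : EndI s N (3 * N) R ε) (hH : AnalyticAt ℂ H (0, 0))
    (hodd : ∀ᶠ p in 𝓝 ((0, 0) : ℂ × ℂ), H (p.1, -p.2) = -H p)
    (hd : ∀ᶠ ξ in 𝓝 (0 : ℂ), iteratedDeriv 1 (fun δ => H (ξ, δ)) 0 = 0 ∧
      iteratedDeriv 3 (fun δ => H (ξ, δ)) 0 = 4) (hlaw : LawE0 s N R H) :
    ∀ᶠ y in 𝓝 (0 : ℂ), H (0, y) = 2 / 3 * Complex.sin y ^ 3 := by
  have hι := hiota E
  have hι0 := iota_ne hι
  obtain ⟨g, hg, eR, -⟩ := expand1 (E_an E) le_rfl (fun i h1 h2 => by omega)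
  obtain ⟨Q, hQ, eH, -⟩ := expand hH le_rfl (fun i h1 h2 => by omega)
  have L := lin A E hH hlaw le_rfl hg eR hQ eH
  have Hz : AnalyticAt ℂ (fun y => H (0, y)) 0 := analyticAt_pair2 hH
  have hsin : AnalyticAt ℂ (fun y : ℂ => 2 / 3 * Complex.sin y ^ 3) 0 :=
    analyticAt_const.mul ((Complex.differentiable_sin.analyticAt 0).pow 3)
  set D : ℂ → ℂ := fun y => H (0, y) - 2 / 3 * Complex.sin y ^ 3 with hD
  have hDa : AnalyticAt ℂ D 0 := Hz.sub hsin
  have hDo : ∀ᶠ y in 𝓝 (0 : ℂ), D (-y) = -D y := by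
    filter_upwards [odd_axis hodd] with y hy
    simp only [hD]
    rw [hy, Complex.sin_neg]
    ring
  have hd0 := hd.self_of_nhds
  have hD1 : iteratedDeriv 1 D 0 = 0 := by
    rw [hD, iteratedDeriv_fun_sub Hz.contDiffAt hsin.contDiffAt, hd0.1, sin3_iter.1, sub_zero]
  have hD3 : iteratedDeriv 3 D 0 = 0 := by
    rw [hD, iteratedDeriv_fun_sub Hz.contDiffAt hsin.contDiffAt, hd0.2, sin3_iter.2, sub_self]
  have hDO := bigO5 hDa hDo hD1 hD3
  have hev : ∀ᶠ z in cobounded ℂ, z ∈ slitPlane →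
      Ph (3 / 2) (fun u => D (u / (2 * (s * I)))) z =
        Ph (3 / 2) (fun u => D (u / (2 * (s * I)))) (z + 1) := by
    filter_upwards [(dz_cob hι).eventually L, root_z A E] with z ⟨x', Lz⟩ h2 hz
    have h3 := transfer0 (h := fun y => H (0, y)) hι hz (h2 hz) Lz.l0
    have h4 := W_sin hι (θ := 0) hz
    have h5 := W_sin hι (θ := 0) (slit_one hz)
    simp only [add_zero, Complex.ofReal_zero, Complex.cpow_zero, mul_one] at h4 h5
    show W (3 / 2) z * D (dz (s * I) z) = W (3 / 2) (z + 1) * D (dz (s * I) (z + 1))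
    simp only [hD]
    linear_combination h3 - h4 + h5
  obtain ⟨M, hM⟩ := ev_cob hev
  have hz := homog (a := 3 / 2) (by norm_num) (by norm_num) (sc_an (s * I) hDa)
    (sc_bigO (s * I) hDO) (M := M) (fun z hz hz2 => hM z hz2 hz)
  filter_upwards [sc_back (F := D) hι0 hz] with y hy
  simp only [hD] at hy
  linear_combination hy

theorem step (A : RootA) (E : EndI s N (3 * N) R ε) (hH : AnalyticAt ℂ H (0, 0))
    (hodd : ∀ᶠ p in 𝓝 ((0, 0) : ℂ × ℂ), H (p.1, -p.2) = -H p)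
    (hd : ∀ᶠ ξ in 𝓝 (0 : ℂ), iteratedDeriv 1 (fun δ => H (ξ, δ)) 0 = 0 ∧
      iteratedDeriv 3 (fun δ => H (ξ, δ)) 0 = 4) (hlaw : LawE0 s N R H)
    {j : ℕ} (hj : 1 ≤ j) (hjN : j < 2 * N)
    (IH : ∀ i, 0 < i → i < j → iteratedDeriv i R 0 = 0 ∧ ∀ᶠ y in 𝓝 (0 : ℂ), c1 H i y = 0) :
    iteratedDeriv j R 0 = 0 ∧ ∀ᶠ y in 𝓝 (0 : ℂ), c1 H j y = 0 := by
  have hι := hiota E
  have hι0 := iota_ne hι
  have hN0 : 0 < N := by have := E.hN; omega
  have hNR : (0 : ℝ) < N := by exact_mod_cast hN0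
  have hjR : (0 : ℝ) < j := by exact_mod_cast (by omega : 0 < j)
  obtain ⟨g, hg, eR, hg0⟩ := expand1 (E_an E) hj (fun i h1 h2 => (IH i h1 h2).1)
  obtain ⟨Q, hQ, eH, hQ0⟩ := expand hH hj (fun i h1 h2 => (IH i h1 h2).2)
  obtain ⟨qo, q1, q3⟩ := Q_props hH hQ eH hodd hd
  have L := lin A E hH hlaw hj hg eR hQ eH
  have hz0 := H_zero A E hH hodd hd hlaw
  have hFa : AnalyticAt ℂ (fun y => Q (0, y)) 0 := analyticAt_pair2 hQ
  have hFO := bigO5 hFa qo q1 q3
  set θ : ℝ := j / (2 * N) with hθ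
  have hθ0 : 0 < θ := by positivity
  have hθ1 : θ < 1 := by
    rw [hθ, div_lt_one (by positivity)]
    exact_mod_cast hjN
  have hθN : (j : ℂ) / N = 2 * (θ : ℂ) := by
    rw [hθ]
    push_cast
    have : (N : ℂ) ≠ 0 := by exact_mod_cast hN0.ne'
    field_simp
  have hder : ∀ᶠ y in 𝓝 (0 : ℂ), deriv (fun y => H (0, y)) y =
      2 * Complex.sin y ^ 2 * Complex.cos y := by
    have h1 : (fun y => H (0, y)) =ᶠ[𝓝 0] fun y => 2 / 3 * Complex.sin y ^ 3 := hz0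
    filter_upwards [h1.eventuallyEq_nhds] with y hy
    rw [hy.deriv_eq]
    have h := ((Complex.hasDerivAt_sin y).pow 3).const_mul (2 / 3 : ℂ)
    have h2 : HasDerivAt (fun y : ℂ => 2 / 3 * Complex.sin y ^ 3) _ y := h
    rw [h2.deriv]
    push_cast
    ring
  have hdz := (dz_cob hι).mono_right (nhdsWithin_le_nhds (s := {0}ᶜ))
  have hdz1 := hdz.comp (add_cob 1)
  have hev : ∀ᶠ z in cobounded ℂ, z ∈ slitPlane →
      Ph (3 / 2 + θ) (fun u => Q (0, u / (2 * (s * I)))) z -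
        Ph (3 / 2 + θ) (fun u => Q (0, u / (2 * (s * I)))) (z + 1) =
          s * I / 12 * (g 0 / R 0) * gI θ z := by
    filter_upwards [(dz_cob hι).eventually L, root_z A E, hdz.eventually hz0, hdz1.eventually hz0,
      hdz1.eventually hder, (dz_cob hι).eventually self_mem_nhdsWithin]
      with z ⟨x', Lz⟩ h2 h3 h4 h5 h6 hz
    exact transfer1 (h := fun y => H (0, y)) (q := fun y => Q (0, y)) hι hθ0.le hθN (E_ne E) hz
      (h2 hz) Lz h6 h3 h4 h5
  obtain ⟨M, hM⟩ := ev_cob hev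
  have hc : s * I / 12 * (g 0 / R 0) = 0 :=
    inhomog hθ0 hθ1 (sc_an (s * I) hFa) (sc_odd (F := fun y => Q (0, y)) (s * I) qo)
      (sc_bigO (s * I) hFO) (M := M)
      (fun z hz hz2 => hM z hz2 hz)
  have hg00 : g 0 = 0 := by
    have h1 : g 0 / R 0 = 0 := (mul_eq_zero.1 hc).resolve_left (div_ne_zero hι0 (by norm_num))
    exact (div_eq_zero_iff.1 h1).resolve_right (E_ne E)
  constructor
  · rw [hg00] at hg0
    have h1 : (j.factorial : ℂ) ≠ 0 := by exact_mod_cast j.factorial_ne_zero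
    exact (div_eq_zero_iff.1 hg0.symm).resolve_right h1
  · have hz := homog (a := 3 / 2 + θ) (by linarith) (by linarith) (sc_an (s * I) hFa)
      (sc_bigO (s * I) hFO) (M := M) (fun z hz hz2 => by
        have := hM z hz2 hz
        rw [hc, zero_mul] at this
        exact sub_eq_zero.1 this)
    filter_upwards [sc_back (F := fun y => Q (0, y)) hι0 hz] with y hy
    rw [← hQ0]
    exact hy

end main

/-- **ALG-LI** -/
theorem pli_of (A : RootA) (h : LawI0) : PLI := by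
  intro s N R ε E
  obtain ⟨H, hH, hodd, hd, hlaw⟩ := h s N (3 * N) R ε E
  have hlaw' : LawE0 s N R H := hlaw
  have key : ∀ j : ℕ, 0 < j → j < 2 * N →
      iteratedDeriv j R 0 = 0 ∧ ∀ᶠ y in 𝓝 (0 : ℂ), c1 H j y = 0 := by
    intro j
    induction j using Nat.strong_induction_on with
    | _ j ih =>
      intro h0 h1
      exact step A E hH hodd hd hlaw' h0 h1 (fun i hi hij => ih i hij hi (by omega))
  exact fun j h0 h1 => (key j h0 h1).1

/-- **ALG-LI** -/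
theorem pli (h : LawI0) : PLI := pli_of H65.rootA h

/-- **ALG-LI**, no hypotheses -/
theorem pli_final : PLI := pli (Vale.Agent.P097.Alg.lawI0 H65.rootA)

end Vale.Agent.P097.H737
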