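import Vale.Agent.P097.H357.L0a

/-! # P097 / ALG-LI: expansions in the first variable. -/

set_option linter.all false

open Complex Metric Filter Topology Set

namespace Vale.Agent.P097.H737

open Vale.Agent.P097.NZ Vale.Agent.P097.Alg Vale.Agent.P097.H357

/-! ## 1. first order expansions at step `j` -/

/-- `f ξ = a + b ξ ^ j + o (ξ ^ j)` -/
def TD (j : ℕ) (f : ℂ → ℂ) (a b : ℂ) : Prop :=
  Tendsto (fun ξ => (f ξ - a) / ξ ^ j) (𝓝[≠] 0) (𝓝 b)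

variable {j : ℕ} {f f' : ℂ → ℂ} {a b a' b' : ℂ}

theorem pow_tendsto (hj : 1 ≤ j) : Tendsto (fun ξ : ℂ => ξ ^ j) (𝓝[≠] 0) (𝓝 0) := by
  have h1 : Tendsto (fun ξ : ℂ => ξ ^ j) (𝓝 0) (𝓝 (0 ^ j)) := (continuous_pow j).tendsto 0
  rw [zero_pow (by omega)] at h1
  exact h1.mono_left nhdsWithin_le_nhds

theorem TD.tendsto (hj : 1 ≤ j) (h : TD j f a b) : Tendsto f (𝓝[≠] 0) (𝓝 a) := by
  have h1 := (pow_tendsto hj).mul h
  rw [zero_mul] at h1
  have h2 := h1.add_const a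
  rw [zero_add] at h2
  refine h2.congr' ?_
  filter_upwards [self_mem_nhdsWithin] with ξ hξ
  have : ξ ^ j ≠ 0 := pow_ne_zero _ hξ
  field_simp
  ring

theorem TD.mul (hj : 1 ≤ j) (h : TD j f a b) (h' : TD j f' a' b') :
    TD j (fun ξ => f ξ * f' ξ) (a * a') (b * a' + a * b') := by
  have h1 : Tendsto (fun ξ => (f ξ - a) / ξ ^ j * f' ξ + a * ((f' ξ - a') / ξ ^ j)) (𝓝[≠] 0)
      (𝓝 (b * a' + a * b')) := (Tendsto.mul h (h'.tendsto hj)).add (Tendsto.const_mul a h')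
  refine h1.congr' (Eventually.of_forall fun ξ => ?_)
  show (f ξ - a) / ξ ^ j * f' ξ + a * ((f' ξ - a') / ξ ^ j) = (f ξ * f' ξ - a * a') / ξ ^ j
  ring

theorem TD.comp (hj : 1 ≤ j) {F : ℂ → ℂ} {F' : ℂ} (h : TD j f a b) (hF : HasDerivAt F F' a) :
    TD j (fun ξ => F (f ξ)) (F a) (F' * b) := by
  have h1 : ContinuousAt (dslope F a) a := continuousAt_dslope_same.2 hF.differentiableAt
  have h2 : Tendsto (fun ξ => dslope F a (f ξ) * ((f ξ - a) / ξ ^ j)) (𝓝[≠] 0)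
      (𝓝 (deriv F a * b)) := by
    refine Tendsto.mul ?_ h
    have := h1.tendsto.comp (h.tendsto hj)
    rwa [dslope_same] at this
  rw [hF.deriv] at h2
  refine h2.congr' (Eventually.of_forall fun ξ => ?_)
  have h3 : (f ξ - a) * dslope F a (f ξ) = F (f ξ) - F a := by
    simpa [smul_eq_mul] using sub_smul_dslope F a (f ξ)
  show dslope F a (f ξ) * ((f ξ - a) / ξ ^ j) = (F (f ξ) - F a) / ξ ^ j
  rw [← h3]
  ring

theorem TD.of {g : ℂ → ℂ} (h : ∀ᶠ ξ in 𝓝[≠] (0 : ℂ), f ξ = a + ξ ^ j * g ξ)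
    (hg : Tendsto g (𝓝[≠] 0) (𝓝 b)) : TD j f a b := by
  refine hg.congr' ?_
  filter_upwards [h, self_mem_nhdsWithin] with ξ h1 hξ
  have : ξ ^ j ≠ 0 := pow_ne_zero _ hξ
  rw [h1]
  field_simp
  ring

theorem TD.add_pow {g : ℂ → ℂ} {c : ℂ} (h : TD j f a b) (hg : Tendsto g (𝓝[≠] 0) (𝓝 c)) :
    TD j (fun ξ => f ξ + ξ ^ j * g ξ) a (b + c) := by
  have h1 : Tendsto (fun ξ => (f ξ - a) / ξ ^ j + g ξ) (𝓝[≠] 0) (𝓝 (b + c)) := Tendsto.add h hg
  refine h1.congr' ?_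
  filter_upwards [self_mem_nhdsWithin] with ξ hξ
  have : ξ ^ j ≠ 0 := pow_ne_zero _ hξ
  field_simp
  ring

theorem TD.congr (h : TD j f a b) (e : ∀ᶠ ξ in 𝓝[≠] (0 : ℂ), f ξ = f' ξ) : TD j f' a b := by
  refine Tendsto.congr' ?_ h
  filter_upwards [e] with ξ h1
  rw [h1]

theorem TD.unique (hj : 1 ≤ j) (h : TD j f a b) (h' : TD j f a' b') : a = a' ∧ b = b' := by
  have h1 := tendsto_nhds_unique (h.tendsto hj) (h'.tendsto hj)
  subst h1
  exact ⟨rfl, tendsto_nhds_unique h h'⟩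

/-! ## 2. expansion of analytic functions -/

theorem iter_sub_const {i : ℕ} (hi : 0 < i) (f : ℂ → ℂ) (c x : ℂ) :
    iteratedDeriv i (fun z => f z - c) x = iteratedDeriv i f x := by
  have e : (fun z => f z - c) = fun z => -c + f z := by funext z; ring
  rw [e]
  exact iteratedDeriv_const_add hi (-c)

theorem expand {f : ℂ × ℂ → ℂ} (hf : AnalyticAt ℂ f (0, 0)) {j : ℕ} (hj : 1 ≤ j)
    (h0 : ∀ i, 0 < i → i < j → ∀ᶠ y in 𝓝 (0 : ℂ), c1 f i y = 0) :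
    ∃ Q : ℂ × ℂ → ℂ, AnalyticAt ℂ Q (0, 0) ∧
      (∀ᶠ p in 𝓝 ((0, 0) : ℂ × ℂ), f p = f (0, p.2) + p.1 ^ j * Q p) ∧
        ∀ y, Q (0, y) = c1 f j y := by
  have h1 : AnalyticAt ℂ (fun p : ℂ × ℂ => ((0, p.2) : ℂ × ℂ)) (0, 0) :=
    analyticAt_const.prod analyticAt_snd
  have hF : AnalyticAt ℂ (fun p : ℂ × ℂ => f p - f (0, p.2)) (0, 0) :=
    hf.sub (hf.comp_of_eq h1 rfl)
  have hc : ∀ i, 0 < i → ∀ y, c1 (fun p : ℂ × ℂ => f p - f (0, p.2)) i y = c1 f i y := by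
    intro i hi y
    simp only [c1, tc, Prod.swap]
    rw [iter_sub_const hi]
  obtain ⟨Q, hQ, hQ1, hQ2⟩ := div1 hF j (by
    intro i hi
    rcases Nat.eq_zero_or_pos i with h | h
    · subst h
      refine Eventually.of_forall fun y => ?_
      simp [c1, tc]
    · filter_upwards [h0 i h hi] with y hy
      rw [hc i h, hy])
  refine ⟨Q, hQ, ?_, fun y => by rw [hQ2, hc j (by omega)]⟩
  filter_upwards [hQ1] with p hp
  rw [← hp]
  ring

theorem expand1 {R : ℂ → ℂ} (hR : AnalyticAt ℂ R 0) {j : ℕ} (hj : 1 ≤ j)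
    (h0 : ∀ i, 0 < i → i < j → iteratedDeriv i R 0 = 0) :
    ∃ g : ℂ → ℂ, AnalyticAt ℂ g 0 ∧ (∀ᶠ ξ in 𝓝 (0 : ℂ), R ξ = R 0 + ξ ^ j * g ξ) ∧
      g 0 = iteratedDeriv j R 0 / j.factorial := by
  have hf : AnalyticAt ℂ (fun p : ℂ × ℂ => R p.1) (0, 0) := hR.comp_of_eq analyticAt_fst rfl
  have hc : ∀ i y, c1 (fun p : ℂ × ℂ => R p.1) i y = iteratedDeriv i R 0 / i.factorial := by
    intro i y
    simp only [c1, tc, Prod.swap]
  obtain ⟨Q, hQ, hQ1, hQ2⟩ := expand hf hj (by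
    intro i hi hij
    refine Eventually.of_forall fun y => ?_
    rw [hc, h0 i hi hij, zero_div])
  refine ⟨fun ξ => Q (ξ, 0), analyticAt_pair hQ, ?_, ?_⟩
  · filter_upwards [eventually_axis hQ1] with ξ hξ using hξ
  · show Q (0, 0) = _
    rw [hQ2, hc]

theorem bigO5 {F : ℂ → ℂ} (hF : AnalyticAt ℂ F 0) (ho : ∀ᶠ y in 𝓝 (0 : ℂ), F (-y) = -F y)
    (h1 : iteratedDeriv 1 F 0 = 0) (h3 : iteratedDeriv 3 F 0 = 0) :
    F =O[𝓝 0] fun y : ℂ => y ^ 5 := by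
  have he : ∀ i, Even i → iteratedDeriv i F 0 = 0 := by
    intro i hi
    have e1 : (fun y => F (-y)) =ᶠ[𝓝 0] fun y => -F y := ho
    have e2 := e1.iteratedDeriv_eq i
    rw [iteratedDeriv_comp_neg, iteratedDeriv_fun_neg, hi.neg_one_pow, one_smul, neg_zero] at e2
    have e3 : (2 : ℂ) * iteratedDeriv i F 0 = 0 := by linear_combination e2
    exact (mul_eq_zero.1 e3).resolve_left two_ne_zero
  have h5 : ((5 : ℕ) : ℕ∞) ≤ analyticOrderAt F 0 := by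
    rw [natCast_le_analyticOrderAt_iff_iteratedDeriv_eq_zero hF]
    intro i hi
    have : i = 0 ∨ i = 1 ∨ i = 2 ∨ i = 3 ∨ i = 4 := by omega
    rcases this with rfl | rfl | rfl | rfl | rfl
    · exact he 0 (by decide)
    · exact h1
    · exact he 2 (by decide)
    · exact h3
    · exact he 4 (by decide)
  obtain ⟨g, hg, hg1⟩ := (natCast_le_analyticOrderAt hF).1 h5
  have hg2 : g =O[𝓝 0] fun _ : ℂ => (1 : ℂ) := hg.continuousAt.isBigO_one ℂ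
  have hg3 : (fun z : ℂ => z ^ 5 * g z) =O[𝓝 0] fun z : ℂ => z ^ 5 * 1 :=
    (Asymptotics.isBigO_refl _ _).mul hg2
  simp only [mul_one] at hg3
  refine hg3.congr' ?_ EventuallyEq.rfl
  filter_upwards [hg1] with z hz
  rw [hz, sub_zero, smul_eq_mul]

theorem ne_of_mem {x : ℂ} (h : x ∈ ({0}ᶜ : Set ℂ)) : x ≠ 0 := h

/-- the coefficient of the first non constant term inherits the properties of `H` -/
theorem Q_props {H Q : ℂ × ℂ → ℂ} (hH : AnalyticAt ℂ H (0, 0)) (hQ : AnalyticAt ℂ Q (0, 0)) {j : ℕ}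
    (e : ∀ᶠ p in 𝓝 ((0, 0) : ℂ × ℂ), H p = H (0, p.2) + p.1 ^ j * Q p)
    (hodd : ∀ᶠ p in 𝓝 ((0, 0) : ℂ × ℂ), H (p.1, -p.2) = -H p)
    (hd : ∀ᶠ ξ in 𝓝 (0 : ℂ), iteratedDeriv 1 (fun δ => H (ξ, δ)) 0 = 0 ∧
      iteratedDeriv 3 (fun δ => H (ξ, δ)) 0 = 4) :
    (∀ᶠ y in 𝓝 (0 : ℂ), Q (0, -y) = -Q (0, y)) ∧ iteratedDeriv 1 (fun y => Q (0, y)) 0 = 0 ∧
      iteratedDeriv 3 (fun y => Q (0, y)) 0 = 0 := by
  constructor
  · -- oddness
    have hneg : Tendsto (fun p : ℂ × ℂ => ((p.1, -p.2) : ℂ × ℂ)) (𝓝 (0, 0)) (𝓝 (0, 0)) := by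
      have : Continuous (fun p : ℂ × ℂ => ((p.1, -p.2) : ℂ × ℂ)) := by fun_prop
      simpa using this.tendsto ((0, 0) : ℂ × ℂ)
    have hax : Tendsto (fun p : ℂ × ℂ => ((0, p.2) : ℂ × ℂ)) (𝓝 (0, 0)) (𝓝 (0, 0)) := by
      have : Continuous (fun p : ℂ × ℂ => ((0, p.2) : ℂ × ℂ)) := by fun_prop
      simpa using this.tendsto ((0, 0) : ℂ × ℂ)
    have h1 : ∀ᶠ p in 𝓝 ((0, 0) : ℂ × ℂ), p.1 ^ j * (Q (p.1, -p.2) + Q p) = 0 := by
      filter_upwards [e, hneg.eventually e, hodd, hax.eventually hodd] with p e1 e2 e3 e4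
      have e2' : H (p.1, -p.2) = H (0, -p.2) + p.1 ^ j * Q (p.1, -p.2) := e2
      have e4' : H (0, -p.2) = -H (0, p.2) := e4
      linear_combination -e2' + e3 - e1 - e4'
    have h2 : AnalyticAt ℂ (fun p : ℂ × ℂ => Q (p.1, -p.2) + Q p) (0, 0) := by
      refine AnalyticAt.add ?_ hQ
      have h3 : AnalyticAt ℂ (fun p : ℂ × ℂ => ((p.1, -p.2) : ℂ × ℂ)) (0, 0) :=
        analyticAt_fst.prod analyticAt_snd.neg
      exact hQ.comp_of_eq h3 (by simp)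
    have h3 := cancel_pow h2 j h1
    have h4 : Tendsto (fun y : ℂ => ((0, y) : ℂ × ℂ)) (𝓝 0) (𝓝 (0, 0)) := by
      have : Continuous (fun y : ℂ => ((0, y) : ℂ × ℂ)) := by fun_prop
      exact this.tendsto 0
    filter_upwards [h4.eventually h3] with y hy
    have hy' : Q (0, -y) + Q (0, y) = 0 := hy
    linear_combination hy'
  · have key : ∀ i : ℕ, ∀ c : ℂ, (∀ᶠ ξ in 𝓝 (0 : ℂ), iteratedDeriv i (fun δ => H (ξ, δ)) 0 = c) →
        iteratedDeriv i (fun y => Q (0, y)) 0 = 0 := by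
      intro i c hc
      have a1 : AnalyticAt ℂ (fun ξ => id2 Q i (ξ, 0)) 0 := analyticAt_pair (analyticAt_id2 hQ i)
      have a2 : ∀ᶠ ξ in 𝓝 (0 : ℂ), AnalyticAt ℂ (fun y => Q (ξ, y)) 0 ∧
          AnalyticAt ℂ (fun y => H (0, y)) 0 ∧
          (fun y => H (ξ, y)) =ᶠ[𝓝 0] fun y => H (0, y) + ξ ^ j * Q (ξ, y) := by
        obtain ⟨r, hr, h1⟩ := exists_polydisc e
        filter_upwards [eventually_axis hQ.eventually_analyticAt, ball_mem_nhds (0 : ℂ) hr] with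
          ξ h2 h3
        refine ⟨analyticAt_pair2 h2, analyticAt_pair2 hH, ?_⟩
        filter_upwards [ball_mem_nhds (0 : ℂ) hr] with y hy
        exact h1 ξ h3 y hy
      have a3 : ∀ᶠ ξ in 𝓝 (0 : ℂ), ξ ^ j * id2 Q i (ξ, 0) = 0 := by
        filter_upwards [a2, hc] with ξ ⟨h1, h2, h3⟩ h4
        have h5 := h3.iteratedDeriv_eq i
        have h6 := (hc.self_of_nhds)
        have h8 : AnalyticAt ℂ (fun y => ξ ^ j * Q (ξ, y)) 0 := analyticAt_const.mul h1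
        rw [iteratedDeriv_fun_add h2.contDiffAt h8.contDiffAt, h4, h6] at h5
        have h7 : iteratedDeriv i (fun z => ξ ^ j * Q (ξ, z)) 0 =
            ξ ^ j * iteratedDeriv i (fun z => Q (ξ, z)) 0 := by
          have := iteratedDeriv_fun_const_smul (n := i) h1.contDiffAt (ξ ^ j)
          simpa only [smul_eq_mul] using this
        rw [h7] at h5
        show ξ ^ j * iteratedDeriv i (fun z => Q (ξ, z)) 0 = 0
        linear_combination -h5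
      have a4 : Tendsto (fun ξ => id2 Q i (ξ, 0)) (𝓝[≠] 0) (𝓝 (id2 Q i (0, 0))) :=
        a1.continuousAt.tendsto.mono_left nhdsWithin_le_nhds
      have a5 : Tendsto (fun ξ => id2 Q i (ξ, 0)) (𝓝[≠] (0 : ℂ)) (𝓝 0) := by
        refine tendsto_const_nhds.congr' ?_
        filter_upwards [nhdsWithin_le_nhds a3, self_mem_nhdsWithin] with ξ h1 h2
        exact ((mul_eq_zero.1 h1).resolve_left (pow_ne_zero _ (ne_of_mem h2))).symm
      exact tendsto_nhds_unique a4 a5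
    exact ⟨key 1 0 (hd.mono fun ξ h => h.1), key 3 4 (hd.mono fun ξ h => h.2)⟩

end Vale.Agent.P097.H737
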