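import Vale.Agent.P097.H737.Kill

/-! # P097 / ALG-LI: the laws in the plane of `s`, `exp (2 i δ) = 1 + 1 / s`. -/

set_option linter.all false

open Complex Metric Filter Topology Set

namespace Vale.Agent.P097.H737

/-- the angle -/
noncomputable def L1 (s : ℂ) : ℂ := Complex.log (1 + 1 / s)

/-- the weight -/
noncomputable def W (a : ℝ) (s : ℂ) : ℂ := Complex.exp (a * (Complex.log s + Complex.log (s + 1)))

/-- the weighted function -/
noncomputable def Ph (a : ℝ) (f : ℂ → ℂ) (s : ℂ) : ℂ := W a s * f (L1 s)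

theorem slit_add {s : ℂ} (hs : s ∈ slitPlane) {x : ℝ} (hx : 0 ≤ x) : s + x ∈ slitPlane := by
  rw [mem_slitPlane_iff] at hs ⊢
  simp only [add_re, ofReal_re, add_im, ofReal_im, add_zero]
  rcases hs with h | h
  · left; linarith
  · right; exact h

theorem slit_one {s : ℂ} (hs : s ∈ slitPlane) : s + 1 ∈ slitPlane := by
  have := slit_add hs (x := 1) zero_le_one
  simpa using this

theorem slit_nat {s : ℂ} (hs : s ∈ slitPlane) (k : ℕ) : s + k ∈ slitPlane := by
  have := slit_add hs (x := k) (by positivity)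
  simpa using this

theorem log_succ {s : ℂ} (hs : s ∈ slitPlane) : Complex.log (s + 1) = Complex.log s + L1 s := by
  have h0 : s ≠ 0 := slitPlane_ne_zero hs
  have h1 : s + 1 ≠ 0 := slitPlane_ne_zero (slit_one hs)
  have h2 : 1 + 1 / s ≠ 0 := by
    intro h; apply h1; field_simp at h; simpa using h
  have e1 : s + 1 = s * (1 + 1 / s) := by field_simp
  rw [e1, L1]
  apply Complex.log_mul h0 h2
  have him : (1 + 1 / s).im = -s.im / normSq s := by
    rw [add_im, one_im, zero_add, one_div, inv_im]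
  have hn : 0 < normSq s := normSq_pos.2 h0
  rcases lt_trichotomy s.im 0 with h | h | h
  · have a1 : 0 < (1 + 1 / s).im := by rw [him]; exact div_pos (by linarith) hn
    have b1 : Complex.arg s < 0 := arg_neg_iff.2 h
    have b2 := Complex.neg_pi_lt_arg s
    have b3 : 0 ≤ Complex.arg (1 + 1 / s) := arg_nonneg_iff.2 a1.le
    have b4 := Complex.arg_le_pi (1 + 1 / s)
    exact ⟨by linarith, by linarith⟩
  · have hr : 0 < s.re := by
      rcases (mem_slitPlane_iff.1 hs) with h' | h'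
      · exact h'
      · exact absurd h h'
    have e2 : s = (s.re : ℂ) := by apply Complex.ext <;> simp [h]
    have e3 : 1 + 1 / s = ((1 + 1 / s.re : ℝ) : ℂ) := by rw [e2]; push_cast; simp
    have e4 : Complex.arg s = 0 := by rw [e2]; exact Complex.arg_ofReal_of_nonneg hr.le
    have e5 : Complex.arg (1 + 1 / s) = 0 := by
      rw [e3]; exact Complex.arg_ofReal_of_nonneg (by positivity)
    rw [e4, e5]
    exact ⟨by linarith [Real.pi_pos], by linarith [Real.pi_pos]⟩
  · have a1 : (1 + 1 / s).im < 0 := by rw [him]; exact div_neg_of_neg_of_pos (by linarith) hn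
    have b1 : 0 ≤ Complex.arg s := arg_nonneg_iff.2 h.le
    have b2 := Complex.arg_le_pi s
    have b3 : Complex.arg (1 + 1 / s) < 0 := arg_neg_iff.2 a1
    have b4 := Complex.neg_pi_lt_arg (1 + 1 / s)
    exact ⟨by linarith, by linarith⟩

theorem W_ne (a : ℝ) (s : ℂ) : W a s ≠ 0 := Complex.exp_ne_zero _

theorem W_succ {s : ℂ} (hs : s ∈ slitPlane) (a : ℝ) :
    W a s * Complex.exp (a * (L1 s + L1 (s + 1))) = W a (s + 1) := by
  rw [W, W, ← Complex.exp_add, log_succ (slit_one hs), log_succ hs]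
  congr 1
  ring

theorem norm_W (a : ℝ) {s : ℂ} (h0 : s ≠ 0) (h1 : s + 1 ≠ 0) :
    ‖W a s‖ = (‖s‖ * ‖s + 1‖) ^ a := by
  have p0 : 0 < ‖s‖ := norm_pos_iff.2 h0
  have p1 : 0 < ‖s + 1‖ := norm_pos_iff.2 h1
  rw [W, Complex.norm_exp]
  have : ((a : ℂ) * (Complex.log s + Complex.log (s + 1))).re =
      Real.log (‖s‖ * ‖s + 1‖) * a := by
    rw [Complex.re_ofReal_mul, add_re, Complex.log_re, Complex.log_re,
      Real.log_mul p0.ne' p1.ne']
    ring
  rw [this, Real.rpow_def_of_pos (by positivity)]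

theorem L1_bd {s : ℂ} (hs : 2 ≤ ‖s‖) : ‖L1 s‖ ≤ 3 / 2 / ‖s‖ := by
  have h0 : 0 < ‖s‖ := by linarith
  have h1 : ‖1 / s‖ ≤ 1 / 2 := by
    rw [norm_div, norm_one]
    exact one_div_le_one_div_of_le (by norm_num) hs
  have h2 := Complex.norm_log_one_add_half_le_self h1
  rw [L1]
  refine h2.trans (le_of_eq ?_)
  rw [norm_div, norm_one]
  ring

theorem L1_tendsto {l : Filter ℂ} (hl : Tendsto (fun s : ℂ => ‖s‖) l atTop) :
    Tendsto L1 l (𝓝 0) := by
  rw [tendsto_zero_iff_norm_tendsto_zero]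
  have h1 : Tendsto (fun s : ℂ => 3 / 2 / ‖s‖) l (𝓝 0) := hl.const_div_atTop _
  refine squeeze_zero' (Eventually.of_forall fun s => norm_nonneg _) ?_ h1
  filter_upwards [hl.eventually_ge_atTop 2] with s hs using L1_bd hs

theorem slit_small {s : ℂ} (hs : 1 < ‖s‖) : 1 + 1 / s ∈ slitPlane := by
  have h1 : ‖1 / s‖ < 1 := by
    rw [norm_div, norm_one, div_lt_one (by linarith)]
    exact hs
  have h2 : -‖1 / s‖ ≤ (1 / s).re := (abs_le.1 (Complex.abs_re_le_norm (1 / s))).1
  rw [mem_slitPlane_iff]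
  left
  rw [add_re, one_re]
  linarith

theorem L1_diff {s : ℂ} (hs : 1 < ‖s‖) : DifferentiableAt ℂ L1 s := by
  have h0 : s ≠ 0 := by rintro rfl; simp at hs; linarith
  have h1 : DifferentiableAt ℂ (fun s : ℂ => 1 + 1 / s) s := by
    refine (differentiableAt_const _).add ((differentiableAt_const _).div differentiableAt_id h0)
  exact h1.clog (slit_small hs)

theorem exp_L1 {s : ℂ} (h0 : s ≠ 0) (h1 : s + 1 ≠ 0) : Complex.exp (L1 s) = (s + 1) / s := by
  rw [L1, Complex.exp_log]
  · field_simp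
  · intro h; apply h1; field_simp at h; simpa using h

theorem L1_ne {s : ℂ} (h0 : s ≠ 0) (h1 : s + 1 ≠ 0) : L1 s ≠ 0 := by
  intro h
  have h2 := exp_L1 h0 h1
  rw [h, Complex.exp_zero, eq_div_iff h0, one_mul] at h2
  have : (0 : ℂ) = 1 := by linear_combination h2
  exact zero_ne_one this

/-- a function which is analytic at `0` is differentiable at the large `s` -/
theorem exists_large {P : ℂ → Prop} (h : ∀ᶠ z in 𝓝 (0 : ℂ), P z) :
    ∃ M : ℝ, 2 ≤ M ∧ ∀ s : ℂ, M < ‖s‖ → P (L1 s) := by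
  obtain ⟨r, hr, h1⟩ := Metric.eventually_nhds_iff_ball.1 h
  refine ⟨max 2 (3 / 2 / r), le_max_left _ _, fun s hs => h1 _ ?_⟩
  have h2 : 2 < ‖s‖ := lt_of_le_of_lt (le_max_left _ _) hs
  have h3 : 3 / 2 / r < ‖s‖ := lt_of_le_of_lt (le_max_right _ _) hs
  rw [mem_ball_zero_iff]
  refine (L1_bd h2.le).trans_lt ?_
  rw [div_lt_iff₀ (by linarith)]
  rw [div_lt_iff₀ hr] at h3
  linarith

theorem Ph_diff {a : ℝ} {f : ℂ → ℂ} {s : ℂ} (hs : s ∈ slitPlane) (h1 : 1 < ‖s‖)
    (hf : DifferentiableAt ℂ f (L1 s)) : DifferentiableAt ℂ (Ph a f) s := by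
  refine DifferentiableAt.mul ?_ (hf.comp s (L1_diff h1))
  have h2 : DifferentiableAt ℂ (fun s : ℂ => Complex.log s + Complex.log (s + 1)) s := by
    refine DifferentiableAt.add (differentiableAt_id.clog hs) ?_
    exact DifferentiableAt.clog (by fun_prop) (slit_one hs)
  exact (h2.const_mul (a : ℂ)).cexp

theorem Ph_tendsto {a : ℝ} (ha0 : 0 ≤ a) (ha : a < 5 / 2) {f : ℂ → ℂ}
    (hf : f =O[𝓝 0] fun z : ℂ => z ^ 5) : Tendsto (fun x : ℝ => Ph a f x) atTop (𝓝 0) := by
  obtain ⟨C, hC⟩ := hf.bound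
  obtain ⟨M, hM, h1⟩ := exists_large hC
  have hC0 : 0 ≤ C := by
    by_contra hneg
    push Not at hneg
    have h2 : ‖f (L1 (M + 1 : ℝ))‖ ≤ C * ‖(L1 (M + 1 : ℝ)) ^ 5‖ := by
      apply h1
      rw [Complex.norm_real, Real.norm_eq_abs, abs_of_pos (by linarith)]
      linarith
    have h3 : L1 ((M + 1 : ℝ) : ℂ) ≠ 0 := by
      apply L1_ne
      · exact_mod_cast (by linarith : M + 1 ≠ 0)
      · have : ((M + 1 : ℝ) : ℂ) + 1 = ((M + 2 : ℝ) : ℂ) := by push_cast; ring
        rw [this]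
        exact_mod_cast (by linarith : M + 2 ≠ 0)
    have h4 : 0 < ‖(L1 ((M + 1 : ℝ) : ℂ)) ^ 5‖ := norm_pos_iff.2 (pow_ne_zero _ h3)
    have h5 := norm_nonneg (f (L1 (M + 1 : ℝ)))
    nlinarith
  rw [tendsto_zero_iff_norm_tendsto_zero]
  have h2 : Tendsto (fun x : ℝ => C * 3 ^ 5 * (x + 1) ^ (-(5 - 2 * a))) atTop
      (𝓝 (C * 3 ^ 5 * 0)) := by
    refine Tendsto.const_mul _ ?_
    exact (tendsto_rpow_neg_atTop (by linarith)).comp (tendsto_atTop_add_const_right _ _ tendsto_id)
  rw [mul_zero] at h2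
  refine squeeze_zero' (Eventually.of_forall fun s => norm_nonneg _) ?_ h2
  filter_upwards [eventually_gt_atTop M] with x hx
  have hx0 : 0 < x := by linarith
  have n0 : ‖(x : ℂ)‖ = x := by rw [Complex.norm_real, Real.norm_eq_abs, abs_of_pos hx0]
  have e1 : (x : ℂ) + 1 = ((x + 1 : ℝ) : ℂ) := by push_cast; ring
  have n1 : ‖(x : ℂ) + 1‖ = x + 1 := by
    rw [e1, Complex.norm_real, Real.norm_eq_abs, abs_of_pos (by linarith)]
  have z0 : (x : ℂ) ≠ 0 := by exact_mod_cast hx0.ne'
  have z1 : (x : ℂ) + 1 ≠ 0 := by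
    rw [e1]; exact_mod_cast (by linarith : x + 1 ≠ 0)
  have h3 := h1 x (by rw [n0]; exact hx)
  rw [norm_pow] at h3
  have h4 : ‖L1 x‖ ≤ 3 / (x + 1) := by
    refine (L1_bd (by rw [n0]; linarith)).trans ?_
    rw [n0, div_div, div_le_div_iff₀ (by positivity) (by positivity)]
    nlinarith
  have h5 : ‖W a x‖ ≤ (x + 1) ^ (2 * a) := by
    rw [norm_W a z0 z1, n0, n1, show (2 * a) = a + a by ring, Real.rpow_add (by linarith),
      ← Real.mul_rpow (by linarith) (by linarith)]
    exact Real.rpow_le_rpow (by positivity) (by nlinarith) ha0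
  calc ‖Ph a f x‖ = ‖W a x‖ * ‖f (L1 x)‖ := by rw [Ph, norm_mul]
    _ ≤ (x + 1) ^ (2 * a) * (C * (3 / (x + 1)) ^ 5) := by
      gcongr
      exact h3.trans (by gcongr)
    _ = C * 3 ^ 5 * (x + 1) ^ (-(5 - 2 * a)) := by
      rw [show -(5 - 2 * a) = 2 * a - (5 : ℕ) by push_cast; ring,
        Real.rpow_sub (by linarith), Real.rpow_natCast, div_pow]
      ring

/-- **the homogeneous kill** -/
theorem homog {a : ℝ} (ha0 : 0 ≤ a) (ha : a < 5 / 2) {f : ℂ → ℂ} (hfa : AnalyticAt ℂ f 0)
    (hf : f =O[𝓝 0] fun z : ℂ => z ^ 5)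
    {M : ℝ} (hlaw : ∀ s ∈ slitPlane, M < ‖s‖ → Ph a f s = Ph a f (s + 1)) :
    ∀ᶠ z in 𝓝 (0 : ℂ), f z = 0 := by
  have ht := Ph_tendsto ha0 ha hf
  have hz : ∀ x : ℝ, max M 2 < x → f (L1 x) = 0 := by
    intro x hx
    have hxM : M < x := lt_of_le_of_lt (le_max_left _ _) hx
    have hx2 : 2 < x := lt_of_le_of_lt (le_max_right _ _) hx
    have hn : ∀ n : ℕ, Ph a f x = Ph a f ((x + n : ℝ) : ℂ) := by
      intro n
      induction n with
      | zero => simp
      | succ n ih =>
        rw [ih, hlaw]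
        · congr 1; push_cast; ring
        · exact ofReal_sl (by positivity)
        · rw [Complex.norm_real, Real.norm_eq_abs, abs_of_pos (by positivity)]
          have : (0 : ℝ) ≤ n := by positivity
          linarith
    have h1 : Tendsto (fun n : ℕ => Ph a f ((x + n : ℝ) : ℂ)) atTop (𝓝 0) :=
      ht.comp (tendsto_atTop_add_const_left _ _ tendsto_natCast_atTop_atTop)
    have h2 : Tendsto (fun n : ℕ => Ph a f ((x + n : ℝ) : ℂ)) atTop (𝓝 (Ph a f x)) := by
      refine tendsto_const_nhds.congr fun n => hn n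
    have h3 := tendsto_nhds_unique h2 h1
    rw [Ph] at h3
    exact (mul_eq_zero.1 h3).resolve_left (W_ne _ _)
  rw [← hfa.frequently_zero_iff_eventually_zero]
  have hL : Tendsto (fun x : ℝ => L1 x) atTop (𝓝[≠] 0) := by
    rw [tendsto_nhdsWithin_iff]
    constructor
    · have h1 : Tendsto (fun x : ℝ => ‖(x : ℂ)‖) atTop atTop := by
        simp only [Complex.norm_real]
        exact tendsto_norm_atTop_atTop
      have h2 : Tendsto (fun s : ℂ => ‖s‖) (map (fun x : ℝ => (x : ℂ)) atTop) atTop := h1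
      exact L1_tendsto h2
    · filter_upwards [eventually_gt_atTop (0 : ℝ)] with x hx
      apply L1_ne
      · exact_mod_cast hx.ne'
      · have : (x : ℂ) + 1 = ((x + 1 : ℝ) : ℂ) := by push_cast; ring
        rw [this]
        exact_mod_cast (by linarith : x + 1 ≠ 0)
  refine hL.frequently ?_
  refine Eventually.frequently ?_
  filter_upwards [eventually_gt_atTop (max M 2)] with x hx using hz x hx

theorem gI_diff {θ : ℝ} {s : ℂ} (hs : s ∈ slitPlane) : DifferentiableAt ℂ (gI θ) s := by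
  have s1 := slit_one hs
  have s2 : s + 2 ∈ slitPlane := by
    have := slit_nat hs 2
    simpa using this
  have h1 : DifferentiableAt ℂ (fun s : ℂ => (s + 1) ^ (θ : ℂ)) s :=
    DifferentiableAt.cpow (by fun_prop) (by fun_prop) s1
  have h2 : DifferentiableAt ℂ (fun s : ℂ => (s + 2) ^ (θ : ℂ)) s :=
    DifferentiableAt.cpow (by fun_prop) (by fun_prop) s2
  have h3 : DifferentiableAt ℂ (fun s : ℂ => s ^ (θ : ℂ)) s :=
    DifferentiableAt.cpow (by fun_prop) (by fun_prop) hs
  have h4 : DifferentiableAt ℂ (Pp θ) s := by unfold Pp; fun_prop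
  have h5 : DifferentiableAt ℂ (Dd θ) s := by unfold Dd; fun_prop
  exact h1.mul ((h2.mul h4).add (h3.mul h5))

theorem gI_real {θ x : ℝ} (hx : 0 < x) : (gI θ x).im = 0 := by
  have e1 : (x : ℂ) + 1 = ((x + 1 : ℝ) : ℂ) := by push_cast; ring
  have e2 : (x : ℂ) + 2 = ((x + 2 : ℝ) : ℂ) := by push_cast; ring
  have e3 : gI θ x = (((x + 1) ^ θ * ((x + 2) ^ θ * (1 - 3 * (x + 2) ^ 2 / (θ + 2) +
      3 * (x + 1) * (x + 2) / (θ + 1)) + x ^ θ * (-1 + 3 * x ^ 2 / (θ + 2) -
      3 * x * (x + 1) / (θ + 1))) : ℝ) : ℂ) := by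
    rw [gI, Pp, Dd, e1, e2, ← Complex.ofReal_cpow (by linarith), ← Complex.ofReal_cpow (by linarith),
      ← Complex.ofReal_cpow (by linarith)]
    push_cast
    ring
  rw [e3, ofReal_im]

/-- the reflection -/
theorem Ph_refl {θ : ℝ} {f : ℂ → ℂ} {s : ℂ} (hs : s.im < 0) (ho : f (-(L1 s)) = -f (L1 s)) :
    Ph (3 / 2 + θ) f (-1 - s) = Complex.exp (2 * Real.pi * I * θ) * Ph (3 / 2 + θ) f s := by
  have h0 : s ≠ 0 := by rintro rfl; simp at hs
  have h1 : s + 1 ≠ 0 := by
    intro h
    have : (s + 1).im = 0 := by rw [h]; simp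
    simp at this
    linarith
  have hs1 : (s + 1).im < 0 := by simpa using hs
  have e1 : L1 (-1 - s) = -L1 s := by
    have h2 : 1 + 1 / (-1 - s) = (1 + 1 / s)⁻¹ := by
      have h3 : -1 - s ≠ 0 := by
        intro h; apply h1; linear_combination -h
      have h4 : 1 + 1 / s ≠ 0 := by
        intro h; apply h1; field_simp at h; simpa using h
      field_simp
      ring
    rw [L1, L1, h2, Complex.log_inv]
    have h5 : 0 < (1 + 1 / s).im := by
      rw [add_im, one_im, zero_add, one_div, inv_im]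
      exact div_pos (by linarith) (normSq_pos.2 h0)
    intro h6
    have h7 := Complex.arg_eq_pi_iff.1 h6
    linarith [h7.2]
  have e2 : W (3 / 2 + θ) (-1 - s) = -(Complex.exp (2 * Real.pi * I * θ) * W (3 / 2 + θ) s) := by
    have h2 : Complex.log (-1 - s) = Complex.log (s + 1) + Real.pi * I := by
      rw [show -1 - s = -(s + 1) by ring, log_neg_of_im_neg hs1]
    have h3 : Complex.log (-1 - s + 1) = Complex.log s + Real.pi * I := by
      rw [show -1 - s + 1 = -s by ring, log_neg_of_im_neg hs]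
    rw [W, W, h2, h3]
    have h4 : (((3 / 2 + θ : ℝ) : ℂ)) * (Complex.log (s + 1) + Real.pi * I +
        (Complex.log s + Real.pi * I)) = ((Real.pi * I + 2 * Real.pi * I) + 2 * Real.pi * I * θ) +
        ((3 / 2 + θ : ℝ) : ℂ) * (Complex.log s + Complex.log (s + 1)) := by
      push_cast
      ring
    rw [h4, Complex.exp_add, Complex.exp_add, Complex.exp_add, Complex.exp_two_pi_mul_I,
      Complex.exp_pi_mul_I]
    ring
  rw [Ph, Ph, e1, e2, ho]
  ring

/-- **the inhomogeneous kill** -/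
theorem inhomog {θ : ℝ} (hθ0 : 0 < θ) (hθ1 : θ < 1) {f : ℂ → ℂ} (hfa : AnalyticAt ℂ f 0)
    (hodd : ∀ᶠ z in 𝓝 (0 : ℂ), f (-z) = -f z) (hf : f =O[𝓝 0] fun z : ℂ => z ^ 5)
    {c : ℂ} {M : ℝ} (hlaw : ∀ s ∈ slitPlane, M < ‖s‖ →
      Ph (3 / 2 + θ) f s - Ph (3 / 2 + θ) f (s + 1) = c * gI θ s) : c = 0 := by
  by_contra hc
  have hP : ∀ᶠ z in 𝓝 (0 : ℂ), DifferentiableAt ℂ f z ∧ f (-z) = -f z := by
    filter_upwards [hfa.eventually_analyticAt, hodd] with z h1 h2 using ⟨h1.differentiableAt, h2⟩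
  obtain ⟨M1, hM1, hL⟩ := exists_large hP
  set M2 : ℝ := max M M1 with hM2
  have hM2a : M ≤ M2 := le_max_left _ _
  have hM2b : M1 ≤ M2 := le_max_right _ _
  obtain ⟨K, hK⟩ := exists_nat_gt (M2 + 2)
  set ψ : ℂ → ℂ := fun s => ∑ k ∈ Finset.range K, gI θ (s + k) +
    c⁻¹ * Ph (3 / 2 + θ) f (s + K) with hψ
  have hlarge : ∀ s : ℂ, -2 < s.re → M2 < ‖s + K‖ := by
    intro s hs
    have h1 := Complex.abs_re_le_norm (s + K)
    have h2 : (s + (K : ℂ)).re = s.re + K := by simp
    have h3 := le_abs_self (s + (K : ℂ)).re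
    rw [h2] at h3 h1
    linarith
  have hd : ∀ s ∈ slitPlane, -2 < s.re → DifferentiableAt ℂ ψ s := by
    intro s hs hre
    refine DifferentiableAt.add ?_ (DifferentiableAt.const_mul ?_ _)
    · refine DifferentiableAt.fun_sum fun k _ => ?_
      have h1 : DifferentiableAt ℂ (gI θ) (s + k) := gI_diff (slit_nat hs k)
      exact DifferentiableAt.comp (f := fun s : ℂ => s + k) s h1 (by fun_prop)
    · have h1 := hlarge s hre
      have h2 : DifferentiableAt ℂ (Ph (3 / 2 + θ) f) (s + K) :=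
        Ph_diff (slit_nat hs K) (by linarith) (hL _ (by linarith)).1
      exact DifferentiableAt.comp (f := fun s : ℂ => s + K) s h2 (by fun_prop)
  have hstep : ∀ s ∈ slitPlane, -2 < s.re → ψ s = gI θ s + ψ (s + 1) := by
    intro s hs hre
    have h1 := hlarge s hre
    have h2 := hlaw (s + K) (slit_nat hs K) (by linarith)
    have h3 : ∑ k ∈ Finset.range K, gI θ (s + k) + gI θ (s + K) =
        gI θ s + ∑ k ∈ Finset.range K, gI θ (s + 1 + k) := by
      have e1 : ∑ k ∈ Finset.range (K + 1), gI θ (s + k) =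
          ∑ k ∈ Finset.range K, gI θ (s + k) + gI θ (s + K) := Finset.sum_range_succ _ _
      have e2 : ∑ k ∈ Finset.range (K + 1), gI θ (s + k) =
          ∑ k ∈ Finset.range K, gI θ (s + (k + 1 : ℕ)) + gI θ (s + (0 : ℕ)) :=
        Finset.sum_range_succ' _ _
      rw [← e1, e2, Nat.cast_zero, add_zero, add_comm]
      congr 1
      refine Finset.sum_congr rfl fun k _ => ?_
      congr 1
      push_cast
      ring
    have h4 : s + 1 + K = s + K + 1 := by ring
    have h5 : c⁻¹ * (Ph (3 / 2 + θ) f (s + K) - Ph (3 / 2 + θ) f (s + K + 1)) = gI θ (s + K) := by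
      rw [h2, ← mul_assoc, inv_mul_cancel₀ hc, one_mul]
    simp only [hψ]
    rw [h4]
    linear_combination h3 + h5
  -- telescoping
  have htel : ∀ n : ℕ, ∀ s ∈ slitPlane, (∀ k < n, M2 < ‖s + k‖) →
      c⁻¹ * Ph (3 / 2 + θ) f s = ∑ k ∈ Finset.range n, gI θ (s + k) +
        c⁻¹ * Ph (3 / 2 + θ) f (s + n) := by
    intro n s hs hk
    induction n with
    | zero => simp
    | succ n ih =>
      have h1 := ih fun k hk' => hk k (by omega)
      have h2 := hlaw (s + n) (slit_nat hs n) (by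
        have := hk n (by omega)
        linarith)
      have h5 : c⁻¹ * (Ph (3 / 2 + θ) f (s + n) - Ph (3 / 2 + θ) f (s + n + 1)) = gI θ (s + n) := by
        rw [h2, ← mul_assoc, inv_mul_cancel₀ hc, one_mul]
      rw [Finset.sum_range_succ, h1]
      have h6 : s + ((n + 1 : ℕ) : ℂ) = s + n + 1 := by push_cast; ring
      rw [h6]
      linear_combination h5
  have hstart : ∀ s : ℂ, M2 < |s.im| → ψ s = c⁻¹ * Ph (3 / 2 + θ) f s := by
    intro s hs
    have hsl : s ∈ slitPlane := by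
      rw [mem_slitPlane_iff]; right
      intro h; rw [h] at hs; simp at hs; linarith
    rw [htel K s hsl]
    intro k _
    have h1 := Complex.abs_im_le_norm (s + k)
    have h2 : (s + (k : ℂ)).im = s.im := by simp
    rw [h2] at h1
    linarith
  -- reality
  have hreal : ∀ x : ℝ, 0 < x → (ψ x).im = 0 := by
    intro x hx
    have hxs := ofReal_sl hx
    have h1 : ∀ n : ℕ, ψ x = ∑ k ∈ Finset.range n, gI θ (x + k) + ψ (x + n) := by
      intro n
      induction n with
      | zero => simp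
      | succ n ih =>
        have h2 := hstep ((x : ℂ) + n) (slit_nat hxs n) (by
          have : ((x : ℂ) + n).re = x + n := by simp
          rw [this]
          have : (0 : ℝ) ≤ n := by positivity
          linarith)
        rw [Finset.sum_range_succ, ih, h2]
        have h6 : (x : ℂ) + ((n + 1 : ℕ) : ℂ) = x + n + 1 := by push_cast; ring
        rw [h6]
        ring
    have h2 : ∀ n : ℕ, M2 < x + n → (ψ x).im = (ψ ((x + n : ℝ) : ℂ)).im := by
      intro n hn
      rw [h1 n, add_im, im_sum]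
      have : ∑ k ∈ Finset.range n, (gI θ ((x : ℂ) + k)).im = 0 := by
        refine Finset.sum_eq_zero fun k _ => ?_
        have := gI_real (θ := θ) (x := x + k) (by positivity)
        push_cast at this
        exact this
      rw [this, zero_add]
      push_cast
      rfl
    -- ψ = c⁻¹ Φ for large real x
    have h3 : ∀ y : ℝ, M2 < y → ψ y = c⁻¹ * Ph (3 / 2 + θ) f y := by
      intro y hy
      rw [htel K y (ofReal_sl (by linarith))]
      intro k _
      have h1 := Complex.abs_re_le_norm ((y : ℂ) + k)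
      have h2 : ((y : ℂ) + (k : ℂ)).re = y + k := by simp
      have : (0 : ℝ) ≤ k := by positivity
      rw [h2, abs_of_pos (by linarith)] at h1
      linarith
    have h4 : Tendsto (fun n : ℕ => (c⁻¹ * Ph (3 / 2 + θ) f ((x + n : ℝ) : ℂ)).im) atTop
        (𝓝 (c⁻¹ * 0).im) := by
      refine (Complex.continuous_im.tendsto _).comp (Tendsto.const_mul _ ?_)
      exact (Ph_tendsto (by linarith) (by linarith) hf).comp
        (tendsto_atTop_add_const_left _ _ tendsto_natCast_atTop_atTop)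
    rw [mul_zero, zero_im] at h4
    refine tendsto_nhds_unique_of_eventuallyEq tendsto_const_nhds h4 ?_
    have h5 : Tendsto (fun n : ℕ => x + (n : ℝ)) atTop atTop :=
      tendsto_atTop_add_const_left _ _ tendsto_natCast_atTop_atTop
    filter_upwards [h5.eventually_gt_atTop M2] with n hn
    rw [h2 n hn, h3 _ hn]
  -- reflection
  set V : Set ℂ := {s | s.im < 0} ∩ ({s | -2 < s.re} ∩ {s | s.re < 1}) with hV
  have hVo : IsOpen V :=
    (isOpen_lt Complex.continuous_im continuous_const).inter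
      ((isOpen_lt continuous_const Complex.continuous_re).inter
        (isOpen_lt Complex.continuous_re continuous_const))
  have hVc : Convex ℝ V :=
    (convex_halfSpace_im_lt 0).inter ((convex_halfSpace_re_gt (-2)).inter (convex_halfSpace_re_lt 1))
  have hsl : ∀ s : ℂ, s.im ≠ 0 → s ∈ slitPlane := fun s hs => by
    rw [mem_slitPlane_iff]; right; exact hs
  have hA1 : AnalyticOnNhd ℂ (fun s => ψ (-1 - s)) V := by
    refine DifferentiableOn.analyticOnNhd (fun s hs => ?_) hVo
    obtain ⟨i1, i2, i3⟩ := hs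
    have i1' : s.im < 0 := i1
    have i2' : -2 < s.re := i2
    have i3' : s.re < 1 := i3
    have h1 : DifferentiableAt ℂ ψ (-1 - s) := hd _ (hsl _ (by simp; linarith)) (by simp; linarith)
    exact (h1.comp s (by fun_prop)).differentiableWithinAt
  have hA2 : AnalyticOnNhd ℂ (fun s => Complex.exp (2 * Real.pi * I * θ) * ψ s) V := by
    refine DifferentiableOn.analyticOnNhd (fun s hs => ?_) hVo
    obtain ⟨i1, i2, i3⟩ := hs
    have i1' : s.im < 0 := i1
    exact ((hd s (hsl _ (by linarith)) i2).const_mul _).differentiableWithinAt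
  have hM2p : 0 < M2 := by linarith
  set s0 : ℂ := -((M2 + 1 : ℝ) : ℂ) * I with hs0
  have hs0im : s0.im = -(M2 + 1) := by simp [hs0]
  have hs0re : s0.re = 0 := by simp [hs0]
  have hs0V : s0 ∈ V := by
    refine ⟨?_, ?_, ?_⟩
    · show s0.im < 0
      rw [hs0im]; linarith
    · show -2 < s0.re
      rw [hs0re]; norm_num
    · show s0.re < 1
      rw [hs0re]; norm_num
  have hev : (fun s => ψ (-1 - s)) =ᶠ[𝓝 s0] fun s => Complex.exp (2 * Real.pi * I * θ) * ψ s := by
    have h1 : ∀ᶠ s in 𝓝 s0, s.im < -M2 :=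
      (Complex.continuous_im.tendsto s0).eventually_lt_const (by rw [hs0im]; linarith)
    filter_upwards [h1] with s hs
    have h2 : M2 < |s.im| := by rw [abs_of_neg (by linarith)]; linarith
    have h3 : M2 < |(-1 - s).im| := by
      have : (-1 - s).im = -s.im := by simp
      rw [this, abs_neg]; exact h2
    show ψ (-1 - s) = Complex.exp (2 * Real.pi * I * θ) * ψ s
    rw [hstart s h2, hstart (-1 - s) h3, Ph_refl (by linarith)]
    · ring
    · refine (hL s ?_).2
      have := Complex.abs_im_le_norm s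
      linarith
  have hrefl := hA1.eqOn_of_preconnected_of_eventuallyEq hA2 hVc.isPreconnected hs0V hev
  have KK : KI θ ψ := ⟨hd, hstep, hreal, fun s h1 h2 h3 => hrefl ⟨h1, h2, h3⟩⟩
  exact KK.false hθ0 hθ1

end Vale.Agent.P097.H737
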