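import Mathlib

/-! # P097 / ALG-LI: the kill of the linearised isotropic law.
A function `ψ`, holomorphic on the slit plane, with `ψ s = g s + ψ (s + 1)`, real on `(0, ∞)`, and
`ψ (-1 - s) = exp (2 π i θ) ψ s` in the lower half plane, does not exist. -/

set_option linter.all false

open Complex Metric Filter Topology Set

namespace Vale.Agent.P097.H737

/-- the coefficient of `(s + 2) ^ θ` -/
noncomputable def Pp (θ : ℝ) (s : ℂ) : ℂ :=
  1 - 3 * (s + 2) ^ 2 / (θ + 2) + 3 * (s + 1) * (s + 2) / (θ + 1)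

/-- the coefficient of `s ^ θ` -/
noncomputable def Dd (θ : ℝ) (s : ℂ) : ℂ :=
  -1 + 3 * s ^ 2 / (θ + 2) - 3 * s * (s + 1) / (θ + 1)

/-- the source of the linearised law -/
noncomputable def gI (θ : ℝ) (s : ℂ) : ℂ :=
  (s + 1) ^ (θ : ℂ) * ((s + 2) ^ (θ : ℂ) * Pp θ s + s ^ (θ : ℂ) * Dd θ s)

theorem log_neg_of_im_neg {s : ℂ} (h : s.im < 0) :
    Complex.log (-s) = Complex.log s + Real.pi * I := by
  rw [Complex.log, Complex.log, norm_neg, arg_neg_eq_arg_add_pi_of_im_neg h]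
  push_cast
  ring

theorem log_neg_of_im_pos {s : ℂ} (h : 0 < s.im) :
    Complex.log (-s) = Complex.log s - Real.pi * I := by
  rw [Complex.log, Complex.log, norm_neg, arg_neg_eq_arg_sub_pi_of_im_pos h]
  push_cast
  ring

theorem cpow_of_im_neg {s : ℂ} (h : s.im < 0) (θ : ℂ) :
    s ^ θ = (-s) ^ θ * Complex.exp (-(Real.pi * I * θ)) := by
  have hs : s ≠ 0 := by rintro rfl; simp at h
  rw [Complex.cpow_def_of_ne_zero hs, Complex.cpow_def_of_ne_zero (neg_ne_zero.2 hs),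
    log_neg_of_im_neg h, ← Complex.exp_add]
  congr 1
  ring

theorem cpow_of_im_pos {s : ℂ} (h : 0 < s.im) (θ : ℂ) :
    s ^ θ = (-s) ^ θ * Complex.exp (Real.pi * I * θ) := by
  have hs : s ≠ 0 := by rintro rfl; simp at h
  rw [Complex.cpow_def_of_ne_zero hs, Complex.cpow_def_of_ne_zero (neg_ne_zero.2 hs),
    log_neg_of_im_pos h, ← Complex.exp_add]
  congr 1
  ring

structure KI (θ : ℝ) (ψ : ℂ → ℂ) : Prop where
  d : ∀ s ∈ slitPlane, -2 < s.re → DifferentiableAt ℂ ψ s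
  step : ∀ s ∈ slitPlane, -2 < s.re → ψ s = gI θ s + ψ (s + 1)
  real : ∀ x : ℝ, 0 < x → (ψ x).im = 0
  refl : ∀ s : ℂ, s.im < 0 → -2 < s.re → s.re < 1 →
    ψ (-1 - s) = Complex.exp (2 * Real.pi * I * θ) * ψ s

variable {θ : ℝ} {ψ : ℂ → ℂ}

/-- `AA` -/
noncomputable def AA (θ : ℝ) (ψ : ℂ → ℂ) (u : ℂ) : ℂ :=
  (1 - u) ^ (θ : ℂ) * (2 - u) ^ (θ : ℂ) * Pp θ (-u) + ψ (1 - u)

theorem KI.lim (K : KI θ ψ) {u : ℝ} (h0 : 0 < u) (h1 : u < 1) :
    AA θ ψ (1 - u) + (u : ℂ) ^ (θ : ℂ) * (1 - u : ℂ) ^ (θ : ℂ) * Complex.exp (Real.pi * I * θ) *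
      Dd θ (u - 1) =
    Complex.exp (2 * Real.pi * I * θ) * (AA θ ψ u + (u : ℂ) ^ (θ : ℂ) * (1 - u : ℂ) ^ (θ : ℂ) *
      Complex.exp (-(Real.pi * I * θ)) * Dd θ (-u)) := by
  -- the two boundary functions
  set f1 : ℂ → ℂ := fun s => (s + 1) ^ (θ : ℂ) * ((s + 2) ^ (θ : ℂ) * Pp θ s +
    ((-s) ^ (θ : ℂ) * Complex.exp (-(Real.pi * I * θ))) * Dd θ s) + ψ (s + 1) with hf1
  set f2 : ℂ → ℂ := fun s => (-s) ^ (θ : ℂ) * ((1 - s) ^ (θ : ℂ) * Pp θ (-1 - s) +
    ((1 + s) ^ (θ : ℂ) * Complex.exp (Real.pi * I * θ)) * Dd θ (-1 - s)) + ψ (-s) with hf2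
  have hP : ∀ g : ℂ → ℂ, Continuous g → Continuous fun s => Pp θ (g s) := by
    intro g hg
    unfold Pp
    fun_prop
  have hD : ∀ g : ℂ → ℂ, Continuous g → Continuous fun s => Dd θ (g s) := by
    intro g hg
    unfold Dd
    fun_prop
  have sl : ∀ x : ℝ, 0 < x → (x : ℂ) ∈ slitPlane := fun x hx => by
    rw [Complex.mem_slitPlane_iff]; left; simpa using hx
  have e1 : (-(u : ℂ)) + 1 ∈ slitPlane := by
    have := sl (1 - u) (by linarith)
    push_cast at this
    rwa [show (-(u : ℂ)) + 1 = 1 - u by ring]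
  have e2 : (-(u : ℂ)) + 2 ∈ slitPlane := by
    have := sl (2 - u) (by linarith)
    push_cast at this
    rwa [show (-(u : ℂ)) + 2 = 2 - u by ring]
  have e3 : -(-(u : ℂ)) ∈ slitPlane := by rw [neg_neg]; exact sl u h0
  have e4 : 1 - (-(u : ℂ)) ∈ slitPlane := by
    have := sl (1 + u) (by linarith)
    push_cast at this
    rwa [show 1 - (-(u : ℂ)) = 1 + u by ring]
  have e5 : 1 + (-(u : ℂ)) ∈ slitPlane := by rw [add_comm]; exact e1
  have c1 : ContinuousAt f1 (-(u : ℂ)) := by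
    refine ContinuousAt.add (ContinuousAt.mul ?_ (ContinuousAt.add (ContinuousAt.mul ?_ ?_)
      (ContinuousAt.mul (ContinuousAt.mul ?_ continuousAt_const) ?_))) ?_
    · exact (continuous_id.add continuous_const).continuousAt.cpow continuousAt_const e1
    · exact (continuous_id.add continuous_const).continuousAt.cpow continuousAt_const e2
    · exact (hP _ continuous_id).continuousAt
    · exact continuous_neg.continuousAt.cpow continuousAt_const e3
    · exact (hD _ continuous_id).continuousAt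
    · have h2 : ContinuousAt ψ (-(u : ℂ) + 1) := (K.d _ e1 (by simp; linarith)).continuousAt
      exact ContinuousAt.comp (f := fun s : ℂ => s + 1) h2 (by fun_prop)
  have c2 : ContinuousAt f2 (-(u : ℂ)) := by
    refine ContinuousAt.add (ContinuousAt.mul ?_ (ContinuousAt.add (ContinuousAt.mul ?_ ?_)
      (ContinuousAt.mul (ContinuousAt.mul ?_ continuousAt_const) ?_))) ?_
    · exact continuous_neg.continuousAt.cpow continuousAt_const e3
    · exact (continuous_const.sub continuous_id).continuousAt.cpow continuousAt_const e4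
    · exact (hP _ (by fun_prop)).continuousAt
    · exact (continuous_const.add continuous_id).continuousAt.cpow continuousAt_const e5
    · exact (hD _ (by fun_prop)).continuousAt
    · have h2 : ContinuousAt ψ (-(-(u : ℂ))) := (K.d _ e3 (by simp; linarith)).continuousAt
      exact ContinuousAt.comp (f := fun s : ℂ => -s) h2 (by fun_prop)
  -- the identity below the axis
  have hid : ∀ τ : ℝ, 0 < τ → f2 (-(u : ℂ) - τ * I) =
      Complex.exp (2 * Real.pi * I * θ) * f1 (-(u : ℂ) - τ * I) := by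
    intro τ hτ
    set s : ℂ := -(u : ℂ) - τ * I with hs
    have him : s.im = -τ := by simp [hs]
    have hre : s.re = -u := by simp [hs]
    have him2 : (-1 - s).im = τ := by simp [him]
    have hre2 : (-1 - s).re = -1 + u := by simp [hre]
    have r1 := K.refl s (by rw [him]; linarith) (by rw [hre]; linarith) (by rw [hre]; linarith)
    have m1 : s ∈ slitPlane := by
      rw [Complex.mem_slitPlane_iff]; right; rw [him]; linarith
    have m2 : -1 - s ∈ slitPlane := by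
      rw [Complex.mem_slitPlane_iff]; right; rw [him2]; linarith
    have s1 := K.step s m1 (by rw [hre]; linarith)
    have s2 := K.step (-1 - s) m2 (by rw [hre2]; linarith)
    have g1 : ψ s = f1 s := by
      rw [s1, hf1]
      simp only [gI]
      rw [cpow_of_im_neg (by rw [him]; linarith : s.im < 0)]
    have g2 : ψ (-1 - s) = f2 s := by
      rw [s2, hf2]
      simp only [gI]
      rw [cpow_of_im_pos (by rw [him2]; linarith : 0 < (-1 - s).im)]
      rw [show -1 - s + 1 = -s by ring, show -1 - s + 2 = 1 - s by ring,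
        show -(-1 - s) = 1 + s by ring]
    rw [← g1, ← g2, r1]
  -- the limit
  have t1 : Tendsto (fun τ : ℝ => -(u : ℂ) - τ * I) (𝓝[>] 0) (𝓝 (-(u : ℂ))) := by
    have : Continuous fun τ : ℝ => -(u : ℂ) - τ * I := by fun_prop
    have h3 := (this.tendsto 0).mono_left (nhdsWithin_le_nhds (s := Ioi 0))
    simpa using h3
  have t2 := c2.tendsto.comp t1
  have t3 := (c1.tendsto.comp t1).const_mul (Complex.exp (2 * Real.pi * I * θ))
  have t4 : f2 (-(u : ℂ)) = Complex.exp (2 * Real.pi * I * θ) * f1 (-(u : ℂ)) := by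
    refine tendsto_nhds_unique_of_eventuallyEq t2 t3 ?_
    filter_upwards [self_mem_nhdsWithin] with τ hτ
    exact hid τ hτ
  have w1 : f2 (-(u : ℂ)) = AA θ ψ (1 - u) + (u : ℂ) ^ (θ : ℂ) * (1 - u : ℂ) ^ (θ : ℂ) *
      Complex.exp (Real.pi * I * θ) * Dd θ (u - 1) := by
    simp only [hf2, AA]
    rw [neg_neg, show (1 : ℂ) - -(u : ℂ) = 1 + u by ring, show (-1 : ℂ) - -(u : ℂ) = u - 1 by ring,
      show (1 : ℂ) + -(u : ℂ) = 1 - u by ring, show (1 : ℂ) - (1 - (u : ℂ)) = u by ring,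
      show (2 : ℂ) - (1 - (u : ℂ)) = 1 + u by ring, show -(1 - (u : ℂ)) = u - 1 by ring]
    ring
  have w2 : f1 (-(u : ℂ)) = AA θ ψ u + (u : ℂ) ^ (θ : ℂ) * (1 - u : ℂ) ^ (θ : ℂ) *
      Complex.exp (-(Real.pi * I * θ)) * Dd θ (-u) := by
    simp only [hf1, AA]
    rw [neg_neg, show -(u : ℂ) + 1 = 1 - u by ring, show -(u : ℂ) + 2 = 2 - u by ring]
    ring
  rw [← w1, ← w2, t4]

theorem ofReal_sl {x : ℝ} (hx : 0 < x) : (x : ℂ) ∈ slitPlane := by
  rw [Complex.mem_slitPlane_iff]; left; simpa using hx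

theorem KI.AA_real (K : KI θ ψ) {u : ℝ} (h0 : 0 < u) (h1 : u < 1) :
    ∃ a : ℝ, AA θ ψ u = a := by
  refine ⟨(1 - u) ^ θ * (2 - u) ^ θ * (1 - 3 * (-u + 2) ^ 2 / (θ + 2) +
    3 * (-u + 1) * (-u + 2) / (θ + 1)) + (ψ ((1 - u : ℝ) : ℂ)).re, ?_⟩
  have h2 : ψ (1 - (u : ℂ)) = ((ψ ((1 - u : ℝ) : ℂ)).re : ℂ) := by
    apply Complex.ext
    · simp
    · have := K.real (1 - u) (by linarith)
      push_cast at this
      simpa using this
  rw [AA, h2]
  push_cast
  rw [Complex.ofReal_cpow (by linarith : 0 ≤ 1 - u), Complex.ofReal_cpow (by linarith : 0 ≤ 2 - u)]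
  simp only [Pp]
  push_cast
  ring

theorem KI.rel (K : KI θ ψ) (hθ0 : 0 < θ) (hθ1 : θ < 1) {u : ℝ} (h0 : 0 < u) (h1 : u < 1) :
    -(2 * Real.cos (Real.pi * θ)) * (AA θ ψ u).re =
      u ^ θ * (1 - u) ^ θ * (-3 * (1 - 2 * u) / (θ + 2)) := by
  obtain ⟨a, ha⟩ := K.AA_real h0 h1
  obtain ⟨b, hb⟩ := K.AA_real (u := 1 - u) (by linarith) (by linarith)
  have hl := K.lim h0 h1
  push_cast at hb
  rw [ha, hb] at hl
  rw [ha, ofReal_re]
  set w : ℝ := u ^ θ * (1 - u) ^ θ with hw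
  have hwc : (u : ℂ) ^ (θ : ℂ) * (1 - u : ℂ) ^ (θ : ℂ) = (w : ℂ) := by
    rw [hw]
    push_cast
    rw [Complex.ofReal_cpow h0.le, Complex.ofReal_cpow (by linarith : 0 ≤ 1 - u)]
    push_cast
    ring
  set d1 : ℝ := -1 + 3 * (u - 1) ^ 2 / (θ + 2) - 3 * (u - 1) * (u - 1 + 1) / (θ + 1) with hd1
  set d2 : ℝ := -1 + 3 * (-u) ^ 2 / (θ + 2) - 3 * (-u) * (-u + 1) / (θ + 1) with hd2
  have e1 : Dd θ (u - 1) = (d1 : ℂ) := by rw [hd1, Dd]; push_cast; ring
  have e2 : Dd θ (-u) = (d2 : ℂ) := by rw [hd2, Dd]; push_cast; ring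
  rw [hwc, e1, e2] at hl
  set E : ℂ := Complex.exp (Real.pi * I * θ) with hE
  have hE2 : Complex.exp (2 * Real.pi * I * θ) = E * E := by
    rw [hE, ← Complex.exp_add]; congr 1; ring
  have hEi : Complex.exp (-(Real.pi * I * θ)) * E = 1 := by
    rw [hE, ← Complex.exp_add]; simp
  have hEi' : E * Complex.exp (-(Real.pi * I * θ)) = 1 := by rw [mul_comm]; exact hEi
  have hl2 : (b : ℂ) * Complex.exp (-(Real.pi * I * θ)) + w * d1 = E * a + w * d2 := by
    have h3 : (b + (w : ℂ) * E * d1) * Complex.exp (-(Real.pi * I * θ)) =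
        (E * E * (a + (w : ℂ) * Complex.exp (-(Real.pi * I * θ)) * d2)) *
          Complex.exp (-(Real.pi * I * θ)) := by
      rw [← hE2, ← hl]
    linear_combination h3 - (w * d1 : ℂ) * hEi' + (E * a + w * d2 : ℂ) * hEi' +
      (w * d2 : ℂ) * E * Complex.exp (-(Real.pi * I * θ)) * hEi'
  have hEx : E = Real.cos (Real.pi * θ) + Real.sin (Real.pi * θ) * I := by
    rw [hE, show (Real.pi : ℂ) * I * θ = ((Real.pi * θ : ℝ) : ℂ) * I by push_cast; ring,
      Complex.exp_mul_I, ← Complex.ofReal_cos, ← Complex.ofReal_sin]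
  have hEy : Complex.exp (-(Real.pi * I * θ)) =
      Real.cos (Real.pi * θ) - Real.sin (Real.pi * θ) * I := by
    rw [show -((Real.pi : ℂ) * I * θ) = ((-(Real.pi * θ) : ℝ) : ℂ) * I by push_cast; ring,
      Complex.exp_mul_I, ← Complex.ofReal_cos, ← Complex.ofReal_sin, Real.cos_neg, Real.sin_neg]
    push_cast
    ring
  rw [hEx, hEy] at hl2
  have hsin : Real.sin (Real.pi * θ) ≠ 0 := by
    have : 0 < Real.sin (Real.pi * θ) := Real.sin_pos_of_pos_of_lt_pi (by positivity) (by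
      have := Real.pi_pos
      nlinarith)
    exact this.ne'
  generalize Real.cos (Real.pi * θ) = c at hl2 ⊢
  generalize Real.sin (Real.pi * θ) = sn at hl2 hsin
  have him : -(b * sn) = sn * a := by
    have := congrArg Complex.im hl2
    simpa using this
  have hre : b * c + w * d1 = c * a + w * d2 := by
    have := congrArg Complex.re hl2
    simpa using this
  have hba : b = -a := by
    have h4 : sn * (a + b) = 0 := by linear_combination -him
    have := (mul_eq_zero.1 h4).resolve_left hsin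
    linarith
  rw [hba] at hre
  have h5 : d2 - d1 = -3 * (1 - 2 * u) / (θ + 2) := by
    rw [hd1, hd2]
    have h6 : θ + 2 ≠ 0 := by positivity
    have h7 : θ + 1 ≠ 0 := by positivity
    field_simp
    ring
  rw [← h5]
  linear_combination hre

/-- **the kill** -/
theorem KI.false (K : KI θ ψ) (hθ0 : 0 < θ) (hθ1 : θ < 1) : False := by
  have hd : DifferentiableAt ℂ (AA θ ψ) 0 := by
    have h1 : DifferentiableAt ℂ (fun u : ℂ => (1 - u) ^ (θ : ℂ)) 0 := by
      refine DifferentiableAt.cpow (by fun_prop) (by fun_prop) ?_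
      simp
    have h2 : DifferentiableAt ℂ (fun u : ℂ => (2 - u) ^ (θ : ℂ)) 0 := by
      refine DifferentiableAt.cpow (by fun_prop) (by fun_prop) ?_
      simp
    have h3 : DifferentiableAt ℂ (fun u : ℂ => Pp θ (-u)) 0 := by
      unfold Pp
      fun_prop
    have h4 : DifferentiableAt ℂ (fun u : ℂ => ψ (1 - u)) 0 := by
      have h5 : DifferentiableAt ℂ ψ (1 - (0 : ℂ)) := by
        rw [sub_zero]
        exact K.d 1 (by simp) (by norm_num)
      exact h5.comp (0 : ℂ) (by fun_prop)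
    exact ((h1.mul h2).mul h3).add h4
  set κ : ℝ := 2 * Real.cos (Real.pi * θ) * (θ + 2) / 3 with hκ
  set β : ℝ → ℝ := fun u => κ * (AA θ ψ u).re with hβ
  have hβd : DifferentiableAt ℝ β 0 := by
    have h1 : HasDerivAt (AA θ ψ) (deriv (AA θ ψ) 0) ((0 : ℝ) : ℂ) := by
      rw [Complex.ofReal_zero]; exact hd.hasDerivAt
    exact (h1.real_of_complex.const_mul κ).differentiableAt
  have hβe : ∀ u : ℝ, 0 < u → u < 1 → β u = u ^ θ * ((1 - u) ^ θ * (1 - 2 * u)) := by
    intro u h0 h1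
    have h2 := K.rel hθ0 hθ1 h0 h1
    simp only [hβ, hκ]
    have h3 : θ + 2 ≠ 0 := by positivity
    field_simp at h2
    field_simp
    linear_combination (-1 : ℝ) * h2
  have hev : ∀ᶠ u : ℝ in 𝓝[>] 0, 0 < u ∧ u < 1 := by
    filter_upwards [self_mem_nhdsWithin, nhdsWithin_le_nhds (Iio_mem_nhds one_pos)] with u h1 h2
      using ⟨h1, h2⟩
  -- limits of the pieces
  have l1 : Tendsto (fun u : ℝ => (1 - u) ^ θ * (1 - 2 * u)) (𝓝[>] 0) (𝓝 1) := by
    have : ContinuousAt (fun u : ℝ => (1 - u) ^ θ * (1 - 2 * u)) 0 := by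
      refine ContinuousAt.mul ?_ (by fun_prop)
      exact ContinuousAt.rpow_const (by fun_prop) (Or.inl (by norm_num))
    have h2 := this.tendsto.mono_left (nhdsWithin_le_nhds (s := Ioi 0))
    simpa using h2
  have l2 : ∀ c : ℝ, 0 < c → Tendsto (fun u : ℝ => u ^ c) (𝓝[>] 0) (𝓝 0) := by
    intro c hc
    have : ContinuousAt (fun u : ℝ => u ^ c) 0 := Real.continuousAt_rpow_const 0 c (Or.inr hc.le)
    have h2 := this.tendsto.mono_left (nhdsWithin_le_nhds (s := Ioi 0))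
    simpa [Real.zero_rpow hc.ne'] using h2
  have hβ0 : β 0 = 0 := by
    have h1 : Tendsto β (𝓝[>] 0) (𝓝 (β 0)) :=
      hβd.continuousAt.tendsto.mono_left nhdsWithin_le_nhds
    have h2 : Tendsto (fun u : ℝ => u ^ θ * ((1 - u) ^ θ * (1 - 2 * u))) (𝓝[>] 0) (𝓝 (0 * 1)) :=
      (l2 θ hθ0).mul l1
    rw [zero_mul] at h2
    refine tendsto_nhds_unique_of_eventuallyEq h1 h2 ?_
    filter_upwards [hev] with u hu using hβe u hu.1 hu.2
  have l3 : Tendsto (fun u : ℝ => u⁻¹ * β u) (𝓝[>] 0) (𝓝 (deriv β 0)) := by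
    have h1 := hβd.hasDerivAt.tendsto_slope_zero_right
    simpa [hβ0] using h1
  have l4 : Tendsto (fun u : ℝ => (u⁻¹ * β u) * u ^ (1 - θ)) (𝓝[>] 0) (𝓝 (deriv β 0 * 0)) :=
    l3.mul (l2 (1 - θ) (by linarith))
  rw [mul_zero] at l4
  have h9 : (1 : ℝ) = 0 := by
    refine tendsto_nhds_unique_of_eventuallyEq l1 l4 ?_
    filter_upwards [hev] with u hu
    rw [hβe u hu.1 hu.2]
    have h3 : u ^ θ * u ^ (1 - θ) = u := by
      rw [← Real.rpow_add hu.1]; simp
    have h4 : u ≠ 0 := hu.1.ne'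
    have h5 : u⁻¹ * (u ^ θ * ((1 - u) ^ θ * (1 - 2 * u))) * u ^ (1 - θ) =
      u⁻¹ * (u ^ θ * u ^ (1 - θ)) * ((1 - u) ^ θ * (1 - 2 * u)) := by ring
    rw [h5, h3, inv_mul_cancel₀ h4, one_mul]
  norm_num at h9

end Vale.Agent.P097.H737
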