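import Vale.Agent.P097.H737.Exp
import Vale.Agent.P097.H147.EL

/-! # P097 / ALG-LI: the coefficient of `ξ ^ j` of the law at an isotropic end. -/

set_option linter.all false

open Complex Metric Filter Topology Set

namespace Vale.Agent.P097.H737

open Vale.Agent.P097.NZ Vale.Agent.P097.Alg Vale.Agent.P097.H357 Vale.Agent.P097.H147

theorem TD.implicit {j : ℕ} (hj : 1 ≤ j) {P : ℂ → ℂ} {P' : ℂ} {x : ℂ → ℂ} {x0 : ℂ}
    (hP : HasDerivAt P P' x0) (hP' : P' ≠ 0) (hP0 : P x0 = 0) (hx : Tendsto x (𝓝[≠] 0) (𝓝 x0))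
    {G : ℂ → ℂ} {G0 : ℂ} (hG : Tendsto G (𝓝[≠] 0) (𝓝 G0))
    (e : ∀ᶠ ξ in 𝓝[≠] (0 : ℂ), P (x ξ) + ξ ^ j * G ξ = 0) : TD j x x0 (-G0 / P') := by
  have h1 : ContinuousAt (dslope P x0) x0 := continuousAt_dslope_same.2 hP.differentiableAt
  have h2 : Tendsto (fun ξ => dslope P x0 (x ξ)) (𝓝[≠] 0) (𝓝 P') := by
    have := h1.tendsto.comp hx
    rwa [dslope_same, hP.deriv] at this
  have h3 : Tendsto (fun ξ => -G ξ / dslope P x0 (x ξ)) (𝓝[≠] 0) (𝓝 (-G0 / P')) :=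
    hG.neg.div h2 hP'
  refine h3.congr' ?_
  filter_upwards [e, self_mem_nhdsWithin, h2.eventually_ne hP'] with ξ h4 h5 h6
  have h7 : (x ξ - x0) * dslope P x0 (x ξ) = P (x ξ) - P x0 := by
    simpa [smul_eq_mul] using sub_smul_dslope P x0 (x ξ)
  have h8 : ξ ^ j ≠ 0 := pow_ne_zero _ (ne_of_mem h5)
  rw [div_eq_div_iff h6 h8]
  rw [hP0] at h7
  linear_combination -h7 - h4

/-! ## 1. explicit chord integrals -/

/-- the kernels `exp (b ι δ v) sin (δ (v - 1)) / (δ (v - 1))` -/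
noncomputable def kb (ι b δ v : ℂ) : ℂ := Complex.exp (b * (ι * (δ * v))) * snc (δ * (v - 1))

/-- their chord integrals -/
noncomputable def PG (ι b δ x : ℂ) : ℂ :=
  -(1 / (2 * δ ^ 2)) * (Complex.exp (-(ι * δ)) * (Complex.exp ((b + 1) * (ι * (δ * x))) - 1) /
    (b + 1) - Complex.exp (ι * δ) * (Complex.exp ((b - 1) * (ι * (δ * x))) - 1) / (b - 1))

theorem two_sin {ι : ℂ} (hι : ι = I ∨ ι = -I) (u : ℂ) :
    Complex.exp (ι * u) - Complex.exp (-(ι * u)) = 2 * ι * Complex.sin u := by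
  have hI : I * I = -1 := I_mul_I
  rcases hι with rfl | rfl
  · rw [Complex.sin, show I * u = u * I by ring, show -(u * I) = -u * I by ring]
    linear_combination (Complex.exp (u * I) - Complex.exp (-u * I)) * hI
  · rw [Complex.sin, show -(-I * u) = u * I by ring, show -I * u = -u * I by ring]
    linear_combination (Complex.exp (-u * I) - Complex.exp (u * I)) * hI

theorem sq_iota {ι : ℂ} (hι : ι = I ∨ ι = -I) : ι * ι = -1 := by
  rcases hι with rfl | rfl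
  · exact I_mul_I
  · rw [neg_mul_neg]; exact I_mul_I

theorem iota_ne {ι : ℂ} (hι : ι = I ∨ ι = -I) : ι ≠ 0 := by
  intro h
  have := sq_iota hι
  rw [h] at this
  norm_num at this

theorem PG_deriv {ι : ℂ} (hι : ι = I ∨ ι = -I) {b δ : ℂ} (hb1 : b + 1 ≠ 0) (hb2 : b - 1 ≠ 0)
    (hδ : δ ≠ 0) (x : ℂ) : HasDerivAt (PG ι b δ) (kb ι b δ x * (x - 1)) x := by
  have h1 : ∀ c : ℂ, HasDerivAt (fun x : ℂ => Complex.exp (c * (ι * (δ * x))))
      (Complex.exp (c * (ι * (δ * x))) * (c * (ι * δ))) x := by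
    intro c
    have h2 : HasDerivAt (fun x : ℂ => c * (ι * (δ * x))) (c * (ι * (δ * 1))) x :=
      (((hasDerivAt_id x).const_mul δ).const_mul ι).const_mul c
    have h3 := h2.cexp
    rwa [mul_one] at h3
  have h4 := (((((h1 (b + 1)).sub_const 1).const_mul (Complex.exp (-(ι * δ)))).div_const
    (b + 1)).sub ((((h1 (b - 1)).sub_const 1).const_mul (Complex.exp (ι * δ))).div_const
    (b - 1))).const_mul (-(1 / (2 * δ ^ 2)))
  refine h4.congr_deriv ?_
  have h5 := mul_snc (δ * (x - 1))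
  have h6 := two_sin hι (δ * (x - 1))
  have e1 : Complex.exp (-(ι * δ)) * Complex.exp ((b + 1) * (ι * (δ * x))) =
      Complex.exp (b * (ι * (δ * x))) * Complex.exp (ι * (δ * (x - 1))) := by
    rw [← Complex.exp_add, ← Complex.exp_add]; congr 1; ring
  have e2 : Complex.exp (ι * δ) * Complex.exp ((b - 1) * (ι * (δ * x))) =
      Complex.exp (b * (ι * (δ * x))) * Complex.exp (-(ι * (δ * (x - 1)))) := by
    rw [← Complex.exp_add, ← Complex.exp_add]; congr 1; ring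
  have e3 : Complex.exp (-(ι * δ)) * (Complex.exp ((b + 1) * (ι * (δ * x))) * ((b + 1) * (ι * δ))) /
      (b + 1) = Complex.exp (b * (ι * (δ * x))) * Complex.exp (ι * (δ * (x - 1))) * (ι * δ) := by
    rw [← e1]; field_simp
  have e4 : Complex.exp (ι * δ) * (Complex.exp ((b - 1) * (ι * (δ * x))) * ((b - 1) * (ι * δ))) /
      (b - 1) = Complex.exp (b * (ι * (δ * x))) * Complex.exp (-(ι * (δ * (x - 1)))) * (ι * δ) := by
    rw [← e2]; field_simp
  rw [e3, e4, kb]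
  have h7 : snc (δ * (x - 1)) * (x - 1) = Complex.sin (δ * (x - 1)) / δ := by
    rw [← h5]; field_simp
  rw [mul_assoc (Complex.exp (b * (ι * (δ * x)))) (snc (δ * (x - 1))) (x - 1), h7]
  have h8 := sq_iota hι
  have h9 : -(1 / (2 * δ ^ 2)) * (Complex.exp (b * (ι * (δ * x))) *
      Complex.exp (ι * (δ * (x - 1))) * (ι * δ) - Complex.exp (b * (ι * (δ * x))) *
      Complex.exp (-(ι * (δ * (x - 1)))) * (ι * δ)) = -(1 / (2 * δ)) * ι *
      Complex.exp (b * (ι * (δ * x))) * (Complex.exp (ι * (δ * (x - 1))) -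
      Complex.exp (-(ι * (δ * (x - 1))))) := by
    field_simp
  rw [h9, h6]
  field_simp
  linear_combination (-Complex.sin (δ * (x - 1))) * h8

theorem kb_cont (ι b δ : ℂ) : Continuous (kb ι b δ) := by
  unfold kb
  have h1 : Continuous snc := snc_diff.continuous
  have h2 : Continuous fun v : ℂ => snc (δ * (v - 1)) := h1.comp (by fun_prop)
  exact (by fun_prop : Continuous fun v : ℂ => Complex.exp (b * (ι * (δ * v)))).mul h2

theorem PG_zero (ι b δ : ℂ) : PG ι b δ 0 = 0 := by simp [PG]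

theorem Kint_kb {ι : ℂ} (hι : ι = I ∨ ι = -I) {b δ : ℂ} (hb1 : b + 1 ≠ 0) (hb2 : b - 1 ≠ 0)
    (hδ : δ ≠ 0) (x : ℂ) : Kint (kb ι b δ) x = PG ι b δ x := by
  have hF : ∀ t ∈ Set.uIcc (0 : ℝ) 1, HasDerivAt (fun t : ℝ => PG ι b δ (t * x))
      (x * (kb ι b δ ((t : ℂ) * x) * ((t : ℂ) * x - 1))) t := by
    intro t ht
    have h1 : HasDerivAt (fun t : ℝ => (t : ℂ) * x) x t := by
      have h2 : HasDerivAt (fun s : ℝ => (s : ℂ)) 1 t := Complex.ofRealCLM.hasDerivAt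
      simpa using h2.mul_const x
    have h3 := (PG_deriv hι hb1 hb2 hδ (t * x)).comp_of_eq t h1 rfl
    refine h3.congr_deriv ?_
    ring
  have hcont : Continuous (fun t : ℝ =>
      x * (kb ι b δ ((t : ℂ) * x) * ((t : ℂ) * x - 1))) := by
    have h1 := kb_cont ι b δ
    have h2 : Continuous (fun t : ℝ => kb ι b δ ((t : ℂ) * x)) := h1.comp (by fun_prop)
    fun_prop
  unfold Kint
  rw [intervalIntegral.integral_eq_sub_of_hasDerivAt hF (hcont.intervalIntegrable 0 1)]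
  simp [PG_zero]

/-! ## 2. the kernel at an end -/

theorem ev_disc (s : ℂ) (N : ℕ) {P : ℂ → Prop} (h : ∀ᶠ z in 𝓝 (0 : ℂ), P z) :
    ∀ᶠ p in 𝓝 ((0, 0) : ℂ × ℂ), ∀ v ∈ closedBall (0 : ℂ) 3,
      P (p.1 * Complex.exp (s * I * (p.2 * v) / N)) := by
  refine (isCompact_closedBall (0 : ℂ) 3).eventually_forall_of_forall_eventually ?_
  intro v _
  have h1 : Continuous fun z : (ℂ × ℂ) × ℂ =>
      z.1.1 * Complex.exp (s * I * (z.1.2 * z.2) / N) := by fun_prop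
  have h2 := h1.tendsto (((0 : ℂ), (0 : ℂ)), v)
  simp only [zero_mul] at h2
  exact h2.eventually h

/-- the first variation of the kernel -/
noncomputable def k1 (s : ℂ) (N j : ℕ) (g : ℂ → ℂ) (p : ℂ × ℂ) (v : ℂ) : ℂ :=
  Complex.exp (3 * (s * I * (p.2 * v))) * (Complex.exp (s * I * (p.2 * v) / N) ^ j *
    g (p.1 * Complex.exp (s * I * (p.2 * v) / N))) * snc (p.2 * (v - 1))

theorem k1_axis {s : ℂ} {N j : ℕ} {g : ℂ → ℂ} (δ : ℂ) :
    k1 s N j g (0, δ) = fun v => g 0 * kb (s * I) (3 + j / N) δ v := by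
  funext v
  simp only [k1, kb, zero_mul]
  rw [← Complex.exp_nat_mul]
  have : Complex.exp ((3 + j / N) * (s * I * (δ * v))) =
      Complex.exp (3 * (s * I * (δ * v))) * Complex.exp (j * (s * I * (δ * v) / N)) := by
    rw [← Complex.exp_add]; congr 1; ring
  rw [this]
  ring

theorem Kint_const_mul (c : ℂ) (K : ℂ → ℂ) (x : ℂ) :
    Kint (fun v => c * K v) x = c * Kint K x := by
  unfold Kint
  rw [← intervalIntegral.integral_const_mul]
  congr 1
  funext t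
  ring

theorem k1_an {s : ℂ} {N j : ℕ} {g : ℂ → ℂ} (hg : AnalyticAt ℂ g 0) :
    AnalyticAt ℂ (fun q : (ℂ × ℂ) × ℂ => Kint (k1 s N j g q.1) q.2) (((0 : ℂ), (0 : ℂ)), (2 : ℂ)) := by
  refine analyticAt_unitInt (G := fun z : ((ℂ × ℂ) × ℂ) × ℂ =>
    z.1.2 * (k1 s N j g z.1.1 (z.2 * z.1.2) * (z.2 * z.1.2 - 1))) fun t _ => ?_
  have a1 : AnalyticAt ℂ (fun z : ((ℂ × ℂ) × ℂ) × ℂ => z.1.1.1) ((((0 : ℂ), (0 : ℂ)), (2 : ℂ)), t) :=
    analyticAt_fst.comp (analyticAt_fst.comp analyticAt_fst)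
  have a2 : AnalyticAt ℂ (fun z : ((ℂ × ℂ) × ℂ) × ℂ => z.1.1.2) ((((0 : ℂ), (0 : ℂ)), (2 : ℂ)), t) :=
    analyticAt_snd.comp (analyticAt_fst.comp analyticAt_fst)
  have a3 : AnalyticAt ℂ (fun z : ((ℂ × ℂ) × ℂ) × ℂ => z.1.2) ((((0 : ℂ), (0 : ℂ)), (2 : ℂ)), t) :=
    analyticAt_snd.comp analyticAt_fst
  have a4 : AnalyticAt ℂ (fun z : ((ℂ × ℂ) × ℂ) × ℂ => z.2) ((((0 : ℂ), (0 : ℂ)), (2 : ℂ)), t) :=
    analyticAt_snd
  have a5 := a4.mul a3
  have b1 : AnalyticAt ℂ (fun z : ((ℂ × ℂ) × ℂ) × ℂ =>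
      Complex.exp (s * I * (z.1.1.2 * (z.2 * z.1.2)) / N)) ((((0 : ℂ), (0 : ℂ)), (2 : ℂ)), t) :=
    ((analyticAt_const.mul (a2.mul a5)).mul analyticAt_const).cexp
  have b2 : AnalyticAt ℂ (fun z : ((ℂ × ℂ) × ℂ) × ℂ =>
      g (z.1.1.1 * Complex.exp (s * I * (z.1.1.2 * (z.2 * z.1.2)) / N)))
        ((((0 : ℂ), (0 : ℂ)), (2 : ℂ)), t) :=
    hg.comp_of_eq (a1.mul b1) (by simp)
  have b3 : AnalyticAt ℂ (fun z : ((ℂ × ℂ) × ℂ) × ℂ =>
      Complex.exp (3 * (s * I * (z.1.1.2 * (z.2 * z.1.2))))) ((((0 : ℂ), (0 : ℂ)), (2 : ℂ)), t) :=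
    (analyticAt_const.mul (analyticAt_const.mul (a2.mul a5))).cexp
  have b4 : AnalyticAt ℂ (fun z : ((ℂ × ℂ) × ℂ) × ℂ => snc (z.1.1.2 * (z.2 * z.1.2 - 1)))
      ((((0 : ℂ), (0 : ℂ)), (2 : ℂ)), t) :=
    (snc_an _).comp_of_eq (a2.mul (a5.sub analyticAt_const)) rfl
  exact a3.mul (((b3.mul ((b1.pow j).mul b2)).mul b4).mul (a5.sub analyticAt_const))

theorem three_div {N : ℕ} (hN : 1 ≤ N) : (((3 * N : ℤ) : ℂ)) / N = 3 := by
  have : (N : ℂ) ≠ 0 := by exact_mod_cast (by omega : N ≠ 0)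
  push_cast
  field_simp

/-- the decomposition of the chord integral -/
theorem Kint_split {s : ℂ} {N j : ℕ} (hN : 1 ≤ N) {R g : ℂ → ℂ} (hg : AnalyticAt ℂ g 0)
    (eR : ∀ᶠ ξ in 𝓝 (0 : ℂ), R ξ = R 0 + ξ ^ j * g ξ) :
    ∀ᶠ p in 𝓝 ((0, 0) : ℂ × ℂ), ∀ x ∈ closedBall (0 : ℂ) 3,
      Kint (ki s N (3 * N) R p) x =
        R 0 * Kint (kb (s * I) 3 p.2) x + p.1 ^ j * Kint (k1 s N j g p) x := by
  have h1 : ∀ᶠ z in 𝓝 (0 : ℂ), R z = R 0 + z ^ j * g z ∧ AnalyticAt ℂ g z := by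
    filter_upwards [eR, hg.eventually_analyticAt] with z h1 h2 using ⟨h1, h2⟩
  filter_upwards [ev_disc s N h1] with p hp x hx
  have hmem : ∀ t ∈ Icc (0 : ℝ) 1, (t : ℂ) * x ∈ closedBall (0 : ℂ) 3 := by
    intro t ht
    rw [mem_closedBall_zero_iff] at hx ⊢
    rw [norm_mul, Complex.norm_real, Real.norm_of_nonneg ht.1]
    calc t * ‖x‖ ≤ 1 * ‖x‖ := by gcongr; exact ht.2
      _ ≤ 3 := by rw [one_mul]; exact hx
  have hk : ∀ v ∈ closedBall (0 : ℂ) 3, ki s N (3 * N) R p v =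
      R 0 * kb (s * I) 3 p.2 v + p.1 ^ j * k1 s N j g p v := by
    intro v hv
    rw [ki, (hp v hv).1, three_div hN, kb, k1, mul_pow,
      show s * I * 3 * (p.2 * v) = 3 * (s * I * (p.2 * v)) by ring]
    ring
  have hsn : Continuous snc := snc_diff.continuous
  have c1 : ContinuousOn (fun t : ℝ => x * (kb (s * I) 3 p.2 ((t : ℂ) * x) * ((t : ℂ) * x - 1)))
      (uIcc 0 1) := by
    have h1 := kb_cont (s * I) 3 p.2
    have h2 : Continuous (fun t : ℝ => kb (s * I) 3 p.2 ((t : ℂ) * x)) := h1.comp (by fun_prop)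
    exact (by fun_prop : Continuous (fun t : ℝ =>
      x * (kb (s * I) 3 p.2 ((t : ℂ) * x) * ((t : ℂ) * x - 1)))).continuousOn
  have c2 : ContinuousOn (fun t : ℝ => x * (k1 s N j g p ((t : ℂ) * x) * ((t : ℂ) * x - 1)))
      (uIcc 0 1) := by
    intro t ht
    rw [uIcc_of_le zero_le_one] at ht
    have d1 : ContinuousAt g (p.1 * Complex.exp (s * I * (p.2 * ((t : ℂ) * x)) / N)) :=
      (hp _ (hmem t ht)).2.continuousAt
    have d2 : ContinuousAt (fun t : ℝ => g (p.1 * Complex.exp (s * I * (p.2 * ((t : ℂ) * x)) / N)))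
        t := by
      have d3 : ContinuousAt (fun t : ℝ =>
          p.1 * Complex.exp (s * I * (p.2 * ((t : ℂ) * x)) / N)) t := by
        have : Continuous (fun t : ℝ =>
          p.1 * Complex.exp (s * I * (p.2 * ((t : ℂ) * x)) / N)) := by fun_prop
        exact this.continuousAt
      exact ContinuousAt.comp (f := fun t : ℝ =>
        p.1 * Complex.exp (s * I * (p.2 * ((t : ℂ) * x)) / N)) d1 d3
    have d4 : Continuous (fun t : ℝ => snc (p.2 * ((t : ℂ) * x - 1))) := hsn.comp (by fun_prop)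
    have d5 : Continuous (fun t : ℝ => Complex.exp (3 * (s * I * (p.2 * ((t : ℂ) * x))))) := by
      fun_prop
    have d6 : Continuous (fun t : ℝ => Complex.exp (s * I * (p.2 * ((t : ℂ) * x)) / N) ^ j) := by
      fun_prop
    have d7 : ContinuousAt (fun t : ℝ => k1 s N j g p ((t : ℂ) * x)) t :=
      (d5.continuousAt.mul (d6.continuousAt.mul d2)).mul d4.continuousAt
    have d8 : Continuous (fun t : ℝ => (t : ℂ) * x - 1) := by fun_prop
    exact (continuousAt_const.mul (d7.mul d8.continuousAt)).continuousWithinAt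
  unfold Kint
  rw [← intervalIntegral.integral_const_mul, ← intervalIntegral.integral_const_mul,
    ← intervalIntegral.integral_add (c1.intervalIntegrable.const_mul _)
      (c2.intervalIntegrable.const_mul _)]
  refine intervalIntegral.integral_congr fun t ht => ?_
  rw [uIcc_of_le zero_le_one] at ht
  show x * (ki s N (3 * N) R p ((t : ℂ) * x) * ((t : ℂ) * x - 1)) = _
  rw [hk _ (hmem t ht)]
  ring

end Vale.Agent.P097.H737
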