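import Vale.Agent.P097.H737.Lin
import Vale.Agent.P097.H791.Iso1

/-! # P097 / ALG-LI: the linearised law. -/

set_option linter.all false

open Complex Metric Filter Topology Set

namespace Vale.Agent.P097.H737

open Vale.Agent.P097.NZ Vale.Agent.P097.Alg Vale.Agent.P097.H357 Vale.Agent.P097.H147

theorem curry0 {P : ℂ × ℂ → Prop} (h : ∀ᶠ p in 𝓝 ((0, 0) : ℂ × ℂ), P p) :
    ∀ᶠ δ in 𝓝 (0 : ℂ), ∀ᶠ ξ in 𝓝 (0 : ℂ), P (ξ, δ) := by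
  obtain ⟨r, hr, h1⟩ := exists_polydisc h
  filter_upwards [ball_mem_nhds (0 : ℂ) hr] with δ hδ
  filter_upwards [ball_mem_nhds (0 : ℂ) hr] with ξ hξ
  exact h1 ξ hξ δ hδ

theorem ri_spec (A : RootA) {s : ℂ} {N : ℕ} {k : ℤ} {R : ℂ → ℂ} (hR : AnalyticAt ℂ R 0)
    (h0 : R 0 ≠ 0) : ∀ᶠ p in 𝓝 ((0, 0) : ℂ × ℂ), ri s N k R p ∈ ball (2 : ℂ) (1 / 4) ∧
      Kint (ki s N k R p) (ri s N k R p) = 0 ∧
      ∀ x ∈ ball (2 : ℂ) (1 / 4), Kint (ki s N k R p) x = 0 → x = ri s N k R p :=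
  (A (ki s N k R) (0, 0) (R 0) h0 (fun v _ => Iso.ki_an hR v) (fun v _ => Iso.ki_axis v)).2.2

/-- what the law gives at a small `δ` (coefficient of `ξ ^ j`); `x = ri (0, δ)` -/
structure Lw (ι R0 : ℂ) (N j : ℕ) (g0 : ℂ) (h q : ℂ → ℂ) (δ x x' : ℂ) : Prop where
  c0 : PG ι 3 δ x = 0
  c1 : R0 * (kb ι 3 δ x * (x - 1)) * x' + g0 * PG ι (3 + j / N) δ x = 0
  l0 : Complex.exp (3 * (ι * (δ * x))) * h (δ * (x - 1)) = h δ
  l1 : (Complex.exp (3 * (ι * (δ * x))) * (3 * (ι * (δ * x'))) * R0 +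
      Complex.exp (3 * (ι * (δ * x))) * (Complex.exp (j / N * (ι * (δ * x))) * g0)) *
        h (δ * (x - 1)) +
      Complex.exp (3 * (ι * (δ * x))) * R0 * (deriv h (δ * (x - 1)) * (δ * x') +
        Complex.exp (j / N * (ι * (δ * x))) * q (δ * (x - 1))) = g0 * h δ + R0 * q δ

section factors

variable {j N : ℕ} {ι δ x0 x' : ℂ} {x R g : ℂ → ℂ} {H Q : ℂ × ℂ → ℂ}

theorem fac_A (hj : 1 ≤ j) (hTx : TD j x x0 x') :
    TD j (fun ξ => Complex.exp (3 * (ι * (δ * x ξ)))) (Complex.exp (3 * (ι * (δ * x0))))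
      (Complex.exp (3 * (ι * (δ * x0))) * (3 * (ι * δ)) * x') := by
  have h1 : HasDerivAt (fun z : ℂ => Complex.exp (3 * (ι * (δ * z))))
      (Complex.exp (3 * (ι * (δ * x0))) * (3 * (ι * δ))) x0 := by
    have h2 : HasDerivAt (fun z : ℂ => 3 * (ι * (δ * z))) (3 * (ι * (δ * 1))) x0 :=
      (((hasDerivAt_id x0).const_mul δ).const_mul ι).const_mul 3
    have h3 := h2.cexp
    rwa [mul_one] at h3
  have h2 := TD.comp hj hTx h1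
  exact h2

theorem fac_w (hxt : Tendsto x (𝓝[≠] 0) (𝓝 x0)) :
    Tendsto (fun ξ => Complex.exp (ι * (δ * x ξ) / N)) (𝓝[≠] 0)
      (𝓝 (Complex.exp (ι * (δ * x0) / N))) := by
  have h1 : Continuous fun z : ℂ => Complex.exp (ι * (δ * z) / N) := by fun_prop
  exact (h1.tendsto x0).comp hxt

theorem fac_wj : Complex.exp (ι * (δ * x0) / N) ^ j = Complex.exp (j / N * (ι * (δ * x0))) := by
  rw [← Complex.exp_nat_mul]; congr 1; ring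

theorem fac_ξ (hxt : Tendsto x (𝓝[≠] 0) (𝓝 x0)) :
    Tendsto (fun ξ => ξ * Complex.exp (ι * (δ * x ξ) / N)) (𝓝[≠] 0) (𝓝 0) := by
  have hid : Tendsto (fun ξ : ℂ => ξ) (𝓝[≠] 0) (𝓝 0) := nhdsWithin_le_nhds
  have := hid.mul (fac_w (ι := ι) (δ := δ) (N := N) hxt)
  rwa [zero_mul] at this

theorem fac_B (hj : 1 ≤ j) (hxt : Tendsto x (𝓝[≠] 0) (𝓝 x0)) (hg : ContinuousAt g 0)
    (eR : ∀ᶠ ξ in 𝓝 (0 : ℂ), R ξ = R 0 + ξ ^ j * g ξ) :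
    TD j (fun ξ => R (ξ * Complex.exp (ι * (δ * x ξ) / N))) (R 0)
      (Complex.exp (j / N * (ι * (δ * x0))) * g 0) := by
  have hwt := fac_w (ι := ι) (δ := δ) (N := N) hxt
  have hξw := fac_ξ (ι := ι) (δ := δ) (N := N) hxt
  refine TD.of (g := fun ξ => Complex.exp (ι * (δ * x ξ) / N) ^ j *
    g (ξ * Complex.exp (ι * (δ * x ξ) / N))) ?_ ?_
  · filter_upwards [hξw.eventually eR] with ξ h1
    rw [h1, mul_pow]
    ring
  · rw [← fac_wj]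
    exact (hwt.pow j).mul (hg.tendsto.comp hξw)

theorem fac_y (hj : 1 ≤ j) (hTx : TD j x x0 x') :
    TD j (fun ξ => δ * (x ξ - 1)) (δ * (x0 - 1)) (δ * x') := by
  have h1 : HasDerivAt (fun z : ℂ => δ * (z - 1)) (δ * 1) x0 :=
    ((hasDerivAt_id x0).sub_const 1).const_mul δ
  rw [mul_one] at h1
  have h2 := TD.comp hj hTx h1
  exact h2

theorem fac_C (hj : 1 ≤ j) (hTx : TD j x x0 x') (hH : AnalyticAt ℂ H (0, δ * (x0 - 1)))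
    (hQ : ContinuousAt Q (0, δ * (x0 - 1)))
    (eH : ∀ᶠ p in 𝓝 ((0, δ * (x0 - 1)) : ℂ × ℂ), H p = H (0, p.2) + p.1 ^ j * Q p) :
    TD j (fun ξ => H (ξ * Complex.exp (ι * (δ * x ξ) / N), δ * (x ξ - 1))) (H (0, δ * (x0 - 1)))
      (deriv (fun y => H (0, y)) (δ * (x0 - 1)) * (δ * x') +
        Complex.exp (j / N * (ι * (δ * x0))) * Q (0, δ * (x0 - 1))) := by
  have hxt := hTx.tendsto hj
  have hwt := fac_w (ι := ι) (δ := δ) (N := N) hxt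
  have hξw := fac_ξ (ι := ι) (δ := δ) (N := N) hxt
  have ty := fac_y (δ := δ) hj hTx
  have hq : Tendsto (fun ξ => (ξ * Complex.exp (ι * (δ * x ξ) / N), δ * (x ξ - 1))) (𝓝[≠] 0)
      (𝓝 ((0 : ℂ), δ * (x0 - 1))) := hξw.prodMk_nhds (ty.tendsto hj)
  have h1 : HasDerivAt (fun y => H (0, y)) (deriv (fun y => H (0, y)) (δ * (x0 - 1)))
      (δ * (x0 - 1)) := (analyticAt_pair2 hH).differentiableAt.hasDerivAt
  have h2 := ty.comp hj h1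
  have h3 : Tendsto (fun ξ => Complex.exp (ι * (δ * x ξ) / N) ^ j *
      Q (ξ * Complex.exp (ι * (δ * x ξ) / N), δ * (x ξ - 1))) (𝓝[≠] 0)
      (𝓝 (Complex.exp (j / N * (ι * (δ * x0))) * Q (0, δ * (x0 - 1)))) := by
    rw [← fac_wj]
    exact (hwt.pow j).mul (hQ.tendsto.comp hq)
  refine (h2.add_pow h3).congr ?_
  filter_upwards [hq.eventually eH] with ξ h4
  rw [h4, mul_pow]
  ring

theorem fac_R (hj : 1 ≤ j) (hg : ContinuousAt g 0)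
    (eR : ∀ᶠ ξ in 𝓝 (0 : ℂ), R ξ = R 0 + ξ ^ j * g ξ) (hQ : ContinuousAt Q (0, δ))
    (eH : ∀ᶠ ξ in 𝓝 (0 : ℂ), H (ξ, δ) = H (0, δ) + ξ ^ j * Q (ξ, δ)) :
    TD j (fun ξ => R ξ * H (ξ, δ)) (R 0 * H (0, δ)) (g 0 * H (0, δ) + R 0 * Q (0, δ)) := by
  have h1 : TD j R (R 0) (g 0) :=
    TD.of (nhdsWithin_le_nhds eR) (hg.tendsto.mono_left nhdsWithin_le_nhds)
  have h2 : TD j (fun ξ => H (ξ, δ)) (H (0, δ)) (Q (0, δ)) := by
    refine TD.of (g := fun ξ => Q (ξ, δ)) (nhdsWithin_le_nhds eH) ?_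
    have h3 : Tendsto (fun ξ : ℂ => (ξ, δ)) (𝓝[≠] 0) (𝓝 ((0 : ℂ), δ)) := by
      have : Continuous (fun ξ : ℂ => (ξ, δ)) := by fun_prop
      exact (this.tendsto 0).mono_left nhdsWithin_le_nhds
    exact hQ.tendsto.comp h3
  exact h1.mul hj h2

theorem law_fixed (hj : 1 ≤ j) (hR0 : R 0 ≠ 0) (hTx : TD j x x0 x') (hg : ContinuousAt g 0)
    (eR : ∀ᶠ ξ in 𝓝 (0 : ℂ), R ξ = R 0 + ξ ^ j * g ξ)
    (hH : AnalyticAt ℂ H (0, δ * (x0 - 1))) (hQ : ContinuousAt Q (0, δ * (x0 - 1)))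
    (eH : ∀ᶠ p in 𝓝 ((0, δ * (x0 - 1)) : ℂ × ℂ), H p = H (0, p.2) + p.1 ^ j * Q p)
    (hQ2 : ContinuousAt Q (0, δ))
    (eH2 : ∀ᶠ ξ in 𝓝 (0 : ℂ), H (ξ, δ) = H (0, δ) + ξ ^ j * Q (ξ, δ))
    (hev : ∀ᶠ ξ in 𝓝[≠] (0 : ℂ), Complex.exp (3 * (ι * (δ * x ξ))) *
      R (ξ * Complex.exp (ι * (δ * x ξ) / N)) *
      H (ξ * Complex.exp (ι * (δ * x ξ) / N), δ * (x ξ - 1)) = R ξ * H (ξ, δ)) :
    Complex.exp (3 * (ι * (δ * x0))) * H (0, δ * (x0 - 1)) = H (0, δ) ∧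
    (Complex.exp (3 * (ι * (δ * x0))) * (3 * (ι * (δ * x'))) * R 0 +
      Complex.exp (3 * (ι * (δ * x0))) * (Complex.exp (j / N * (ι * (δ * x0))) * g 0)) *
        H (0, δ * (x0 - 1)) +
      Complex.exp (3 * (ι * (δ * x0))) * R 0 * (deriv (fun y => H (0, y)) (δ * (x0 - 1)) * (δ * x') +
        Complex.exp (j / N * (ι * (δ * x0))) * Q (0, δ * (x0 - 1))) =
      g 0 * H (0, δ) + R 0 * Q (0, δ) := by
  have hxt := hTx.tendsto hj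
  have tL := ((fac_A (ι := ι) (δ := δ) hj hTx).mul hj
    (fac_B (ι := ι) (δ := δ) (N := N) hj hxt hg eR)).mul hj
    (fac_C (ι := ι) (N := N) hj hTx hH hQ eH)
  have tR := fac_R hj hg eR hQ2 eH2
  obtain ⟨u0, u1⟩ := (tL.congr hev).unique hj tR
  constructor
  · apply mul_left_cancel₀ hR0
    linear_combination u0
  · linear_combination u1

end factors

/-- the expansion of the root -/
theorem root_fixed {s : ℂ} {N j : ℕ} {R g : ℂ → ℂ} {δ x0 : ℂ} {x : ℂ → ℂ}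
    (hι : s * I = I ∨ s * I = -I) (hj : 1 ≤ j) (hδ : δ ≠ 0) (hR0 : R 0 ≠ 0)
    (hxc : ContinuousAt x 0) (hx0 : x 0 = x0)
    (hb : ∀ᶠ ξ in 𝓝 (0 : ℂ), x ξ ∈ ball (2 : ℂ) (1 / 4) ∧ Kint (ki s N (3 * N) R (ξ, δ)) (x ξ) = 0)
    (hs : ∀ᶠ ξ in 𝓝 (0 : ℂ), ∀ x ∈ closedBall (0 : ℂ) 3,
      Kint (ki s N (3 * N) R (ξ, δ)) x =
        R 0 * Kint (kb (s * I) 3 δ) x + ξ ^ j * Kint (k1 s N j g (ξ, δ)) x)
    (hG : ContinuousAt (fun q : (ℂ × ℂ) × ℂ => Kint (k1 s N j g q.1) q.2) (((0 : ℂ), δ), x0))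
    (hkb : kb (s * I) 3 δ x0 * (x0 - 1) ≠ 0) :
    PG (s * I) 3 δ x0 = 0 ∧ ∃ x', TD j x x0 x' ∧
      R 0 * (kb (s * I) 3 δ x0 * (x0 - 1)) * x' + g 0 * PG (s * I) (3 + j / N) δ x0 = 0 := by
  have hb1 : (3 : ℂ) + j / N + 1 ≠ 0 := by
    have : (3 : ℂ) + j / N + 1 = ((3 + j / N + 1 : ℝ) : ℂ) := by push_cast; ring
    rw [this]
    exact_mod_cast (by positivity : (3 + j / N + 1 : ℝ) ≠ 0)
  have hb2 : (3 : ℂ) + j / N - 1 ≠ 0 := by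
    have : (3 : ℂ) + j / N - 1 = ((2 + j / N : ℝ) : ℂ) := by push_cast; ring
    rw [this]
    exact_mod_cast (by positivity : (2 + j / N : ℝ) ≠ 0)
  have hxt : Tendsto x (𝓝[≠] 0) (𝓝 x0) := by
    rw [← hx0]; exact hxc.tendsto.mono_left nhdsWithin_le_nhds
  have hpair : Tendsto (fun ξ : ℂ => ((ξ, δ), x ξ)) (𝓝 0) (𝓝 (((0 : ℂ), δ), x0)) := by
    have h1 : Tendsto (fun ξ : ℂ => (ξ, δ)) (𝓝 0) (𝓝 ((0 : ℂ), δ)) := by
      have : Continuous (fun ξ : ℂ => (ξ, δ)) := by fun_prop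
      exact this.tendsto 0
    rw [← hx0]
    exact h1.prodMk_nhds hxc.tendsto
  -- the chord equation
  have e0 : ∀ᶠ ξ in 𝓝 (0 : ℂ),
      R 0 * PG (s * I) 3 δ (x ξ) + ξ ^ j * Kint (k1 s N j g (ξ, δ)) (x ξ) = 0 := by
    filter_upwards [hb, hs] with ξ h1 h2
    have h3 : x ξ ∈ closedBall (0 : ℂ) 3 := by
      have h4 := h1.1
      rw [mem_ball, dist_eq_norm] at h4
      rw [mem_closedBall_zero_iff]
      have h5 : ‖x ξ‖ ≤ ‖x ξ - 2‖ + ‖(2 : ℂ)‖ := by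
        have := norm_add_le (x ξ - 2) 2
        rwa [sub_add_cancel] at this
      have h6 : ‖(2 : ℂ)‖ = 2 := by norm_num
      rw [h6] at h5
      linarith
    have h4 := h2 (x ξ) h3
    rw [← Kint_kb hι (by norm_num) (by norm_num) hδ, ← h4]
    exact h1.2
  have c0 : PG (s * I) 3 δ x0 = 0 := by
    have h1 := e0.self_of_nhds
    rw [zero_pow (by omega), zero_mul, add_zero, hx0] at h1
    exact (mul_eq_zero.1 h1).resolve_left hR0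
  have hGt : Tendsto (fun ξ => Kint (k1 s N j g (ξ, δ)) (x ξ)) (𝓝[≠] 0)
      (𝓝 (g 0 * PG (s * I) (3 + j / N) δ x0)) := by
    have h1 : Tendsto (fun ξ => Kint (k1 s N j g (ξ, δ)) (x ξ)) (𝓝 0)
        (𝓝 (Kint (k1 s N j g (0, δ)) x0)) := hG.tendsto.comp hpair
    rw [k1_axis, Kint_const_mul, Kint_kb hι hb1 hb2 hδ] at h1
    exact h1.mono_left nhdsWithin_le_nhds
  have hP : HasDerivAt (fun z => R 0 * PG (s * I) 3 δ z) (R 0 * (kb (s * I) 3 δ x0 * (x0 - 1))) x0 :=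
    (PG_deriv hι (by norm_num) (by norm_num) hδ x0).const_mul (R 0)
  refine ⟨c0, _, TD.implicit hj hP (mul_ne_zero hR0 hkb) (by rw [c0, mul_zero]) hxt hGt
    (nhdsWithin_le_nhds e0), ?_⟩
  rw [mul_div_cancel₀ _ (mul_ne_zero hR0 hkb)]
  ring

theorem lin (A : RootA) {s : ℂ} {N : ℕ} {R : ℂ → ℂ} {ε : ℝ} (E : EndI s N (3 * N) R ε)
    {H : ℂ × ℂ → ℂ} (hH : AnalyticAt ℂ H (0, 0))
    (hlaw : ∀ᶠ p in 𝓝 ((0, 0) : ℂ × ℂ),
      Complex.exp (s * I * ((3 * N : ℤ) / N) * (p.2 * ri s N (3 * N) R p)) *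
        R (Ti s N (3 * N) R p).1 * H (Ti s N (3 * N) R p) = R p.1 * H p)
    {j : ℕ} (hj : 1 ≤ j) {g : ℂ → ℂ} (hg : AnalyticAt ℂ g 0)
    (eR : ∀ᶠ ξ in 𝓝 (0 : ℂ), R ξ = R 0 + ξ ^ j * g ξ)
    {Q : ℂ × ℂ → ℂ} (hQ : AnalyticAt ℂ Q (0, 0))
    (eH : ∀ᶠ p in 𝓝 ((0, 0) : ℂ × ℂ), H p = H (0, p.2) + p.1 ^ j * Q p) :
    ∀ᶠ δ in 𝓝[≠] (0 : ℂ), ∃ x', Lw (s * I) (R 0) N j (g 0) (fun y => H (0, y))
      (fun y => Q (0, y)) δ (ri s N (3 * N) R (0, δ)) x' := by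
  have hι : s * I = I ∨ s * I = -I := by
    rcases E.hs with rfl | rfl
    · left; ring
    · right; ring
  have hR : AnalyticAt ℂ R 0 := E.dR.analyticAt (isOpen_ball.mem_nhds (mem_ball_self E.hε))
  have hR0 : R 0 ≠ 0 := E.R0 0 (mem_ball_self E.hε)
  have hra : AnalyticAt ℂ (ri s N (3 * N) R) (0, 0) := Iso.ri_an A hR hR0
  have hr2 : ri s N (3 * N) R (0, 0) = 2 := Iso.ri_axis A hR hR0
  have hrc : ContinuousAt (fun δ : ℂ => ri s N (3 * N) R (0, δ)) 0 :=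
    (analyticAt_pair2 hra).continuousAt
  have hx2 : Tendsto (fun δ : ℂ => ri s N (3 * N) R (0, δ)) (𝓝 0) (𝓝 2) := by
    have := hrc.tendsto
    rwa [hr2] at this
  have hy1 : Tendsto (fun δ : ℂ => δ * (ri s N (3 * N) R (0, δ) - 1)) (𝓝 0) (𝓝 0) := by
    have := (tendsto_id (α := ℂ) (x := 𝓝 0)).mul (hx2.sub_const 1)
    simpa using this
  have hy : Tendsto (fun δ : ℂ => ((0 : ℂ), δ * (ri s N (3 * N) R (0, δ) - 1))) (𝓝 0)
      (𝓝 (0, 0)) := tendsto_const_nhds.prodMk_nhds hy1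
  have hδ0 : Tendsto (fun δ : ℂ => ((0 : ℂ), δ)) (𝓝 0) (𝓝 (0, 0)) :=
    tendsto_const_nhds.prodMk_nhds tendsto_id
  have hsnc : ∀ᶠ δ in 𝓝 (0 : ℂ), snc (δ * (ri s N (3 * N) R (0, δ) - 1)) ≠ 0 := by
    have h2 : Tendsto (fun δ : ℂ => snc (δ * (ri s N (3 * N) R (0, δ) - 1))) (𝓝 0) (𝓝 1) := by
      have := (snc_diff.continuous.tendsto 0).comp hy1
      rwa [snc_zero] at this
    exact h2.eventually_ne one_ne_zero
  have hx1 : ∀ᶠ δ in 𝓝 (0 : ℂ), ri s N (3 * N) R (0, δ) - 1 ≠ 0 := by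
    have : Tendsto (fun δ : ℂ => ri s N (3 * N) R (0, δ) - 1) (𝓝 0) (𝓝 (2 - 1)) := hx2.sub_const 1
    exact this.eventually_ne (by norm_num)
  have hG1ev : ∀ᶠ δ in 𝓝 (0 : ℂ), ContinuousAt
      (fun q : (ℂ × ℂ) × ℂ => Kint (k1 s N j g q.1) q.2)
        (((0 : ℂ), δ), ri s N (3 * N) R (0, δ)) := by
    have h1 : Tendsto (fun δ : ℂ => (((0 : ℂ), δ), ri s N (3 * N) R (0, δ))) (𝓝 0)
        (𝓝 (((0 : ℂ), (0 : ℂ)), (2 : ℂ))) := hδ0.prodMk_nhds hx2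
    exact h1.eventually ((k1_an (s := s) (N := N) (j := j) hg).eventually_analyticAt.mono
      fun q hq => hq.continuousAt)
  have hQc : ∀ᶠ p in 𝓝 ((0, 0) : ℂ × ℂ), ContinuousAt Q p :=
    hQ.eventually_analyticAt.mono fun p hp => hp.continuousAt
  filter_upwards [nhdsWithin_le_nhds hsnc, nhdsWithin_le_nhds hx1, nhdsWithin_le_nhds hG1ev,
    nhdsWithin_le_nhds (hδ0.eventually hra.eventually_analyticAt),
    nhdsWithin_le_nhds (curry0 (ri_spec A (s := s) (N := N) (k := 3 * N) hR hR0)),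
    nhdsWithin_le_nhds (curry0 (Kint_split (s := s) (j := j) E.hN hg eR)),
    nhdsWithin_le_nhds (curry0 hlaw), nhdsWithin_le_nhds (curry0 eH),
    nhdsWithin_le_nhds (hδ0.eventually hQc), nhdsWithin_le_nhds (hy.eventually hQc),
    nhdsWithin_le_nhds (hy.eventually hH.eventually_analyticAt),
    nhdsWithin_le_nhds (hy.eventually (eventually_eventually_nhds.2 eH)), self_mem_nhdsWithin]
    with δ p1 p2 p3 p4 p5 p6 p7 p8 p9 p10 p11 p12 p13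
  have hδ : δ ≠ 0 := ne_of_mem p13
  have hxc : ContinuousAt (fun ξ => ri s N (3 * N) R (ξ, δ)) 0 := (analyticAt_pair p4).continuousAt
  obtain ⟨c0, x', hTx, c1⟩ := root_fixed (N := N) (j := j) (g := g) hι hj hδ hR0 hxc rfl
    (p5.mono fun ξ h => ⟨h.1, h.2.1⟩) p6 p3
    (mul_ne_zero (mul_ne_zero (Complex.exp_ne_zero _) p1) p2)
  have hev : ∀ᶠ ξ in 𝓝[≠] (0 : ℂ), Complex.exp (3 * (s * I * (δ * ri s N (3 * N) R (ξ, δ)))) *
      R (ξ * Complex.exp (s * I * (δ * ri s N (3 * N) R (ξ, δ)) / N)) *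
      H (ξ * Complex.exp (s * I * (δ * ri s N (3 * N) R (ξ, δ)) / N),
        δ * (ri s N (3 * N) R (ξ, δ) - 1)) = R ξ * H (ξ, δ) := by
    filter_upwards [nhdsWithin_le_nhds p7] with ξ h1
    have h2 : Complex.exp (s * I * ((3 * N : ℤ) / N) * (δ * ri s N (3 * N) R (ξ, δ))) *
      R (ξ * Complex.exp (s * I * (δ * ri s N (3 * N) R (ξ, δ)) / N)) *
      H (ξ * Complex.exp (s * I * (δ * ri s N (3 * N) R (ξ, δ)) / N),
        δ * (ri s N (3 * N) R (ξ, δ) - 1)) = R ξ * H (ξ, δ) := h1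
    rw [three_div E.hN, show s * I * 3 * (δ * ri s N (3 * N) R (ξ, δ)) =
      3 * (s * I * (δ * ri s N (3 * N) R (ξ, δ))) by ring] at h2
    exact h2
  obtain ⟨u0, u1⟩ := law_fixed (N := N) (ι := s * I) hj hR0 hTx hg.continuousAt eR p11 p10 p12 p9
    p8 hev
  exact ⟨x', ⟨c0, c1, u0, u1⟩⟩

end Vale.Agent.P097.H737
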