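import Vale.Agent.P097.H737.Flat
import Vale.Agent.P097.H737.Lin2

/-! # P097 / ALG-LI: from the linearised law to the plane of `s`. -/

set_option linter.all false

open Complex Metric Filter Topology Set

namespace Vale.Agent.P097.H737

open Vale.Agent.P097.NZ Vale.Agent.P097.Alg Vale.Agent.P097.H357 Vale.Agent.P097.H147

/-- the angle at `z` -/
noncomputable def dz (ι z : ℂ) : ℂ := L1 z / (2 * ι)

theorem W_eq {θ : ℝ} {z : ℂ} (hz : z ∈ slitPlane) :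
    W (3 / 2 + θ) z = z ^ 3 * Complex.exp (L1 z / 2) ^ 3 * (z ^ (θ : ℂ) * (z + 1) ^ (θ : ℂ)) := by
  have h0 : z ≠ 0 := slitPlane_ne_zero hz
  have h1 : z + 1 ≠ 0 := slitPlane_ne_zero (slit_one hz)
  have e0 : z ^ 3 = Complex.exp (3 * Complex.log z) := by
    rw [show (3 : ℂ) * Complex.log z = (3 : ℕ) * Complex.log z by push_cast; ring,
      Complex.exp_nat_mul, Complex.exp_log h0]
  have e1 : Complex.exp (L1 z / 2) ^ 3 = Complex.exp (3 * (L1 z / 2)) := by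
    rw [show (3 : ℂ) * (L1 z / 2) = (3 : ℕ) * (L1 z / 2) by push_cast; ring, Complex.exp_nat_mul]
  rw [W, e0, e1, Complex.cpow_def_of_ne_zero h0, Complex.cpow_def_of_ne_zero h1, log_succ hz,
    ← Complex.exp_add, ← Complex.exp_add, ← Complex.exp_add]
  congr 1
  push_cast
  ring

theorem E_sq {z : ℂ} (h0 : z ≠ 0) (h1 : z + 1 ≠ 0) :
    z * Complex.exp (L1 z / 2) ^ 2 = z + 1 := by
  have h2 := exp_L1 h0 h1
  have h3 : Complex.exp (L1 z / 2) ^ 2 = Complex.exp (L1 z) := by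
    rw [← Complex.exp_nat_mul]; congr 1; push_cast; ring
  rw [h3, h2]
  field_simp

theorem iota_dz {ι : ℂ} (hι : ι = I ∨ ι = -I) (z : ℂ) : ι * dz ι z = L1 z / 2 := by
  have := iota_ne hι
  rw [dz]
  field_simp

theorem sin_z {ι : ℂ} (hι : ι = I ∨ ι = -I) {z : ℂ} (h0 : z ≠ 0) (h1 : z + 1 ≠ 0) :
    2 * ι * (z * Complex.exp (L1 z / 2) * Complex.sin (dz ι z)) = 1 := by
  have h2 := two_sin hι (dz ι z)
  rw [iota_dz hι] at h2
  have h3 := E_sq h0 h1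
  have h4 : Complex.exp (-(L1 z / 2)) * Complex.exp (L1 z / 2) = 1 := by
    rw [← Complex.exp_add]; simp
  linear_combination (-(z * Complex.exp (L1 z / 2))) * h2 + h3 - z * h4

theorem W_sin {ι : ℂ} (hι : ι = I ∨ ι = -I) {θ : ℝ} {z : ℂ} (hz : z ∈ slitPlane) :
    W (3 / 2 + θ) z * (2 / 3 * Complex.sin (dz ι z) ^ 3) =
      ι / 12 * (z ^ (θ : ℂ) * (z + 1) ^ (θ : ℂ)) := by
  have h0 : z ≠ 0 := slitPlane_ne_zero hz
  have h1 : z + 1 ≠ 0 := slitPlane_ne_zero (slit_one hz)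
  have h2 := sin_z hι h0 h1
  have h3 := sq_iota hι
  rw [W_eq hz]
  set u : ℂ := z * Complex.exp (L1 z / 2) * Complex.sin (dz ι z) with hu
  have h4 : u ^ 3 = ι / 8 := by
    have h5 : 8 * ι ^ 3 * u ^ 3 = 1 := by
      calc 8 * ι ^ 3 * u ^ 3 = (2 * ι * u) ^ 3 := by ring
        _ = 1 := by rw [h2, one_pow]
    have h6 : ι ^ 4 = 1 := by
      calc ι ^ 4 = (ι * ι) * (ι * ι) := by ring
        _ = 1 := by rw [h3]; ring
    linear_combination (ι / 8) * h5 - u ^ 3 * h6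
  have h5 : z ^ 3 * Complex.exp (L1 z / 2) ^ 3 * (z ^ (θ : ℂ) * (z + 1) ^ (θ : ℂ)) *
      (2 / 3 * Complex.sin (dz ι z) ^ 3) = 2 / 3 * u ^ 3 * (z ^ (θ : ℂ) * (z + 1) ^ (θ : ℂ)) := by
    rw [hu]; ring
  rw [h5, h4]
  ring

theorem cpow_succ {θ : ℝ} {z : ℂ} (hz : z ∈ slitPlane) :
    z ^ (θ : ℂ) * Complex.exp (θ * L1 z) = (z + 1) ^ (θ : ℂ) := by
  have h0 : z ≠ 0 := slitPlane_ne_zero hz
  have h1 : z + 1 ≠ 0 := slitPlane_ne_zero (slit_one hz)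
  rw [Complex.cpow_def_of_ne_zero h0, Complex.cpow_def_of_ne_zero h1, log_succ hz,
    ← Complex.exp_add]
  congr 1
  ring

/-- the bracket of `PG` at `b = 3 + 2 θ` -/
noncomputable def BB (θ : ℝ) (z : ℂ) : ℂ :=
  Complex.exp (-(L1 z / 2)) * (Complex.exp ((4 + 2 * θ) * ((L1 z + L1 (z + 1)) / 2)) - 1) /
    (4 + 2 * θ) - Complex.exp (L1 z / 2) *
    (Complex.exp ((2 + 2 * θ) * ((L1 z + L1 (z + 1)) / 2)) - 1) / (2 + 2 * θ)

theorem exp_sum {z : ℂ} (hz : z ∈ slitPlane) :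
    Complex.exp (L1 z + L1 (z + 1)) * z = z + 2 := by
  have h0 : z ≠ 0 := slitPlane_ne_zero hz
  have h1 : z + 1 ≠ 0 := slitPlane_ne_zero (slit_one hz)
  have h2 : z + 1 + 1 ≠ 0 := slitPlane_ne_zero (slit_one (slit_one hz))
  rw [Complex.exp_add, exp_L1 h0 h1, exp_L1 h1 h2]
  field_simp
  ring

theorem W_BB {ι : ℂ} (hι : ι = I ∨ ι = -I) {θ : ℝ} (hθ : 0 ≤ θ) {z : ℂ} (hz : z ∈ slitPlane) :
    W (3 / 2 + θ) z * (BB θ z * (Complex.sin (dz ι (z + 1)) * Complex.exp (L1 (z + 1) / 2))) =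
      -(ι / 4) * ((z + 1) ^ (θ : ℂ) * (((z + 2) ^ 2 * (z + 2) ^ (θ : ℂ) - z ^ 2 * z ^ (θ : ℂ)) /
        (θ + 2) - (z + 1) * ((z + 2) * (z + 2) ^ (θ : ℂ) - z * z ^ (θ : ℂ)) / (θ + 1))) := by
  have h0 : z ≠ 0 := slitPlane_ne_zero hz
  have h1 : z + 1 ≠ 0 := slitPlane_ne_zero (slit_one hz)
  have h2 : z + 1 + 1 ≠ 0 := slitPlane_ne_zero (slit_one (slit_one hz))
  have hs := sin_z hι h1 h2
  have hE2 := E_sq h1 h2
  have hE1 := E_sq h0 h1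
  have h3 := sq_iota hι
  have hι0 := iota_ne hι
  have hθ1 : (θ : ℂ) + 1 ≠ 0 := by exact_mod_cast (by positivity : θ + 1 ≠ 0)
  have hθ2 : (θ : ℂ) + 2 ≠ 0 := by exact_mod_cast (by positivity : θ + 2 ≠ 0)
  -- sin y * e^{ιy}
  have hy : Complex.sin (dz ι (z + 1)) * Complex.exp (L1 (z + 1) / 2) = -ι / (2 * (z + 1)) := by
    rw [eq_div_iff (mul_ne_zero two_ne_zero h1)]
    linear_combination (-ι) * hs - (2 * (z + 1) * Complex.exp (L1 (z + 1) / 2) *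
      Complex.sin (dz ι (z + 1))) * (-h3)
  -- powers
  set P : ℂ := Complex.exp (θ * (L1 z + L1 (z + 1))) with hP
  have hPT : z ^ (θ : ℂ) * P = (z + 2) ^ (θ : ℂ) := by
    have c1 := cpow_succ (θ := θ) hz
    have c2 := cpow_succ (θ := θ) (slit_one hz)
    rw [hP, mul_add, Complex.exp_add, ← mul_assoc, c1, c2]
    congr 1
    ring
  set q : ℂ := Complex.exp (L1 z + L1 (z + 1)) with hq
  have hqz : q * z = z + 2 := exp_sum hz
  have e4 : Complex.exp ((4 + 2 * θ) * ((L1 z + L1 (z + 1)) / 2)) = q ^ 2 * P := by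
    rw [hq, hP, ← Complex.exp_nat_mul, ← Complex.exp_add]; congr 1; push_cast; ring
  have e2 : Complex.exp ((2 + 2 * θ) * ((L1 z + L1 (z + 1)) / 2)) = q * P := by
    rw [hq, hP, ← Complex.exp_add]; congr 1; ring
  have e5 : Complex.exp (-(L1 z / 2)) * Complex.exp (L1 z / 2) = 1 := by
    rw [← Complex.exp_add]; simp
  rw [hy, W_eq hz, BB, e4, e2]
  set E1 : ℂ := Complex.exp (L1 z / 2) with hE1d
  set F1 : ℂ := Complex.exp (-(L1 z / 2)) with hF1d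
  set T0 : ℂ := z ^ (θ : ℂ) with hT0
  set T1 : ℂ := (z + 1) ^ (θ : ℂ) with hT1
  rw [← hPT]
  have a1 : (4 : ℂ) + 2 * θ = 2 * (θ + 2) := by ring
  have a2 : (2 : ℂ) + 2 * θ = 2 * (θ + 1) := by ring
  rw [a1, a2]
  -- z^3 E1^3 F1 = z^2 (z+1), z^3 E1^3 E1 = z (z+1)^2
  have b1 : z ^ 3 * E1 ^ 3 * F1 = z ^ 2 * (z + 1) := by
    linear_combination (z ^ 3 * E1 ^ 2) * e5 + z ^ 2 * hE1
  have b2 : z ^ 3 * E1 ^ 3 * E1 = z * (z + 1) ^ 2 := by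
    linear_combination (z * (z * E1 ^ 2 + (z + 1))) * hE1
  have b3 : z ^ 3 * E1 ^ 3 * (T0 * T1) * ((F1 * (q ^ 2 * P - 1) / (2 * (θ + 2)) -
      E1 * (q * P - 1) / (2 * (θ + 1))) * (-ι / (2 * (z + 1)))) =
      -(ι / 4) * T1 * (T0 * (z ^ 3 * E1 ^ 3 * F1) * (q ^ 2 * P - 1) / ((z + 1) * (θ + 2)) -
        T0 * (z ^ 3 * E1 ^ 3 * E1) * (q * P - 1) / ((z + 1) * (θ + 1))) := by
    field_simp
    ring
  rw [b3, b1, b2]
  have b4 : T0 * (z ^ 2 * (z + 1)) * (q ^ 2 * P - 1) / ((z + 1) * (θ + 2)) =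
      ((z + 2) ^ 2 * (T0 * P) - z ^ 2 * T0) / (θ + 2) := by
    rw [← hqz]
    field_simp
  have b5 : T0 * (z * (z + 1) ^ 2) * (q * P - 1) / ((z + 1) * (θ + 1)) =
      (z + 1) * ((z + 2) * (T0 * P) - z * T0) / (θ + 1) := by
    rw [← hqz]
    field_simp
  rw [b4, b5]
  ring

end Vale.Agent.P097.H737
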