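import Vale.Agent.P097.H737.Tr

/-! # P097 / ALG-LI: from the linearised law to the plane of `s`, second part. -/

set_option linter.all false

open Complex Metric Filter Topology Set Bornology

namespace Vale.Agent.P097.H737

open Vale.Agent.P097.NZ Vale.Agent.P097.Alg Vale.Agent.P097.H357 Vale.Agent.P097.H147

section transfer

variable {ι R0 g0 x x' : ℂ} {θ : ℝ} {N j : ℕ} {h q : ℂ → ℂ} {z : ℂ}

theorem dz_sub (hι : ι = I ∨ ι = -I) (hx : dz ι z * x = (L1 z + L1 (z + 1)) / (2 * ι)) :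
    dz ι z * (x - 1) = dz ι (z + 1) := by
  have := iota_ne hι
  rw [mul_sub, hx, dz, dz]
  field_simp
  ring

theorem iota_x (hι : ι = I ∨ ι = -I) (hx : dz ι z * x = (L1 z + L1 (z + 1)) / (2 * ι)) :
    ι * (dz ι z * x) = (L1 z + L1 (z + 1)) / 2 := by
  have := iota_ne hι
  rw [hx]
  field_simp

/-- zeroth order -/
theorem transfer0 (hι : ι = I ∨ ι = -I) (hz : z ∈ slitPlane)
    (hx : dz ι z * x = (L1 z + L1 (z + 1)) / (2 * ι))
    (hl : Complex.exp (3 * (ι * (dz ι z * x))) * h (dz ι z * (x - 1)) = h (dz ι z)) :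
    W (3 / 2) z * h (dz ι z) = W (3 / 2) (z + 1) * h (dz ι (z + 1)) := by
  rw [dz_sub hι hx, iota_x hι hx] at hl
  rw [← hl, ← W_succ hz]
  have : Complex.exp (3 * ((L1 z + L1 (z + 1)) / 2)) =
      Complex.exp ((3 / 2 : ℝ) * (L1 z + L1 (z + 1))) := by
    congr 1; push_cast; ring
  rw [this]
  ring

theorem transfer1 (hι : ι = I ∨ ι = -I) (hθ : 0 ≤ θ) (hθN : (j : ℂ) / N = 2 * θ) (hR0 : R0 ≠ 0)
    (hz : z ∈ slitPlane) (hx : dz ι z * x = (L1 z + L1 (z + 1)) / (2 * ι))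
    (L : Lw ι R0 N j g0 h q (dz ι z) x x') (hδ : dz ι z ≠ 0)
    (h1 : h (dz ι z) = 2 / 3 * Complex.sin (dz ι z) ^ 3)
    (h2 : h (dz ι (z + 1)) = 2 / 3 * Complex.sin (dz ι (z + 1)) ^ 3)
    (h3 : deriv h (dz ι (z + 1)) =
      2 * Complex.sin (dz ι (z + 1)) ^ 2 * Complex.cos (dz ι (z + 1))) :
    W (3 / 2 + θ) z * q (dz ι z) - W (3 / 2 + θ) (z + 1) * q (dz ι (z + 1)) =
      ι / 12 * (g0 / R0) * gI θ z := by
  have hι0 := iota_ne hι
  have hsq := sq_iota hι
  have hs := dz_sub hι hx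
  have hix := iota_x hι hx
  set δ : ℂ := dz ι z with hδd
  set y : ℂ := dz ι (z + 1) with hyd
  -- the expansion of the root
  have hk : kb ι 3 δ x * (x - 1) = Complex.exp (3 * ((L1 z + L1 (z + 1)) / 2)) *
      (Complex.sin y / δ) := by
    have h5 := mul_snc (δ * (x - 1))
    rw [kb, hix, mul_assoc]
    congr 1
    rw [eq_div_iff hδ, ← hs, ← h5]
    ring
  have hP : PG ι (3 + j / N) δ x = -(1 / (2 * δ ^ 2)) * BB θ z := by
    rw [PG, hix, BB, hθN, hδd, iota_dz hι, show (3 : ℂ) + 2 * θ + 1 = 4 + 2 * θ by ring,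
      show (3 : ℂ) + 2 * θ - 1 = 2 + 2 * θ by ring]
  have c1 := L.c1
  rw [hk, hP] at c1
  have c2 : R0 * (Complex.exp (3 * ((L1 z + L1 (z + 1)) / 2)) * Complex.sin y * (δ * x')) =
      g0 * BB θ z / 2 := by
    have c3 : δ ^ 2 * (R0 * (Complex.exp (3 * ((L1 z + L1 (z + 1)) / 2)) *
      (Complex.sin y / δ)) * x' + g0 * (-(1 / (2 * δ ^ 2)) * BB θ z)) =
      R0 * (Complex.exp (3 * ((L1 z + L1 (z + 1)) / 2)) * Complex.sin y * (δ * x')) -
      g0 * BB θ z / 2 := by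
      field_simp
      ring
    rw [c1, mul_zero] at c3
    linear_combination -c3
  have l1 := L.l1
  rw [hix, hs, h1, h2, h3, hθN] at l1
  have hey : Complex.cos y + ι * Complex.sin y = Complex.exp (L1 (z + 1) / 2) := by
    have e1 : ι * y = L1 (z + 1) / 2 := iota_dz hι (z + 1)
    rw [← e1]
    rcases hι with rfl | rfl
    · rw [mul_comm I y, Complex.exp_mul_I]; ring
    · rw [show -I * y = (-y) * I by ring, Complex.exp_mul_I, Complex.cos_neg, Complex.sin_neg]; ring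
  set X3 : ℂ := Complex.exp (3 * ((L1 z + L1 (z + 1)) / 2)) with hX3
  set Xb : ℂ := Complex.exp (2 * θ * ((L1 z + L1 (z + 1)) / 2)) with hXb
  have hW : W (3 / 2 + θ) z * (X3 * Xb) = W (3 / 2 + θ) (z + 1) := by
    rw [← W_succ hz, hX3, hXb, ← Complex.exp_add]
    congr 2
    push_cast
    ring
  have w0 := W_sin hι (θ := θ) hz
  have w1 := W_sin hι (θ := θ) (slit_one hz)
  have w2 := W_BB hι hθ hz
  -- the law
  have l2 : R0 * (q δ - X3 * Xb * q y) = g0 * (BB θ z * (Complex.sin y *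
      Complex.exp (L1 (z + 1) / 2)) + X3 * Xb * (2 / 3 * Complex.sin y ^ 3) -
        2 / 3 * Complex.sin δ ^ 3) := by
    rw [← hey]
    linear_combination -l1 + (2 * Complex.sin y * (Complex.cos y + ι * Complex.sin y)) * c2
  have hg : gI θ z = (z + 1) ^ (θ : ℂ) * ((z + 2) ^ (θ : ℂ) - z ^ (θ : ℂ)) -
      3 * ((z + 1) ^ (θ : ℂ) * (((z + 2) ^ 2 * (z + 2) ^ (θ : ℂ) - z ^ 2 * z ^ (θ : ℂ)) /
        (θ + 2) - (z + 1) * ((z + 2) * (z + 2) ^ (θ : ℂ) - z * z ^ (θ : ℂ)) / (θ + 1))) := by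
    rw [gI, Pp, Dd]
    have hθ1 : (θ : ℂ) + 1 ≠ 0 := by exact_mod_cast (by positivity : θ + 1 ≠ 0)
    have hθ2 : (θ : ℂ) + 2 ≠ 0 := by exact_mod_cast (by positivity : θ + 2 ≠ 0)
    field_simp
    ring
  have hz2 : z + 1 + 1 = z + 2 := by ring
  rw [hz2] at w1
  apply mul_left_cancel₀ hR0
  have e3 : R0 * (ι / 12 * (g0 / R0) * gI θ z) = g0 * (ι / 12 * gI θ z) := by
    field_simp
  rw [e3]
  have e4 : W (3 / 2 + θ) z * (R0 * (q δ - X3 * Xb * q y)) = W (3 / 2 + θ) z * (g0 *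
      (BB θ z * (Complex.sin y * Complex.exp (L1 (z + 1) / 2)) + X3 * Xb *
        (2 / 3 * Complex.sin y ^ 3) - 2 / 3 * Complex.sin δ ^ 3)) := by rw [l2]
  rw [hg]
  linear_combination e4 + (R0 * q y + g0 * (2 / 3 * Complex.sin y ^ 3)) * hW +
    g0 * w1 - g0 * w0 + g0 * w2

end transfer

/-! ## large `z` -/

theorem cob_norm : Tendsto (fun z : ℂ => ‖z‖) (cobounded ℂ) atTop := tendsto_norm_cobounded_atTop

theorem L1_cob : Tendsto L1 (cobounded ℂ) (𝓝 0) := L1_tendsto cob_norm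

theorem add_cob (c : ℂ) : Tendsto (fun z : ℂ => z + c) (cobounded ℂ) (cobounded ℂ) := by
  rw [← tendsto_norm_atTop_iff_cobounded]
  have h1 : Tendsto (fun z : ℂ => ‖z‖ - ‖c‖) (cobounded ℂ) atTop :=
    tendsto_atTop_add_const_right _ (-‖c‖) cob_norm
  refine tendsto_atTop_mono (fun z => ?_) h1
  have := norm_sub_le (z + c) c
  rw [add_sub_cancel_right] at this
  linarith

theorem ev_cob {P : ℂ → Prop} (h : ∀ᶠ z in cobounded ℂ, P z) :
    ∃ M : ℝ, ∀ z : ℂ, M < ‖z‖ → P z := by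
  obtain ⟨M, -, hM⟩ := (Filter.hasBasis_cobounded_norm (E := ℂ)).eventually_iff.1 h
  exact ⟨M, fun z hz => hM hz.le⟩

theorem ne_cob (c : ℂ) : ∀ᶠ z in cobounded ℂ, z + c ≠ 0 := by
  have h1 : ∀ᶠ z in cobounded ℂ, ‖c‖ < ‖z‖ := cob_norm.eventually_gt_atTop _
  filter_upwards [h1] with z hz h
  have : z = -c := by linear_combination h
  rw [this, norm_neg] at hz
  exact lt_irrefl _ hz

theorem mul_L1 : Tendsto (fun z : ℂ => z * L1 z) (cobounded ℂ) (𝓝 1) := by
  have h1 : HasDerivAt (fun u : ℂ => Complex.log (1 + u)) 1 0 := by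
    have h2 : HasDerivAt (fun u : ℂ => 1 + u) 1 0 := (hasDerivAt_id (0 : ℂ)).const_add 1
    have h3 := h2.clog (by simp)
    simpa using h3
  have h2 : Tendsto (fun z : ℂ => 1 / z) (cobounded ℂ) (𝓝[≠] 0) := by
    rw [tendsto_nhdsWithin_iff]
    constructor
    · rw [tendsto_zero_iff_norm_tendsto_zero]
      have := tendsto_inv_atTop_zero.comp cob_norm
      refine this.congr fun z => ?_
      simp
    · filter_upwards [ne_cob 0] with z hz
      rw [add_zero] at hz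
      exact one_div_ne_zero hz
  have h3 := (hasDerivAt_iff_tendsto_slope.1 h1).comp h2
  refine h3.congr' ?_
  filter_upwards [ne_cob 0] with z hz
  rw [add_zero] at hz
  simp only [Function.comp_apply, slope_def_field, add_zero, Complex.log_one, sub_zero, L1]
  field_simp

theorem ratio_L1 : Tendsto (fun z : ℂ => (L1 z + L1 (z + 1)) / L1 z) (cobounded ℂ) (𝓝 2) := by
  have h1 := mul_L1
  have h2 : Tendsto (fun z : ℂ => (z + 1) * L1 (z + 1)) (cobounded ℂ) (𝓝 1) := mul_L1.comp (add_cob 1)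
  have h3 : Tendsto (fun z : ℂ => z / (z + 1)) (cobounded ℂ) (𝓝 1) := by
    have h4 : Tendsto (fun z : ℂ => (z + 1)⁻¹) (cobounded ℂ) (𝓝 0) :=
      tendsto_inv₀_cobounded.comp (add_cob 1)
    have h5 := h4.const_sub 1
    rw [sub_zero] at h5
    refine h5.congr' ?_
    filter_upwards [ne_cob 1] with z hz
    field_simp
    ring
  have h4 := ((h3.mul (h2.div h1 one_ne_zero)).const_add 1)
  have h5 : (1 : ℂ) + 1 * (1 / 1) = 2 := by norm_num
  rw [h5] at h4
  refine h4.congr' ?_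
  filter_upwards [ne_cob 1, ne_cob 0] with z hz hz0
  rw [add_zero] at hz0
  have h6 := L1_ne hz0 hz
  show 1 + z / (z + 1) * (((z + 1) * L1 (z + 1)) / (z * L1 z)) = (L1 z + L1 (z + 1)) / L1 z
  field_simp

theorem dz_cob {ι : ℂ} (hι : ι = I ∨ ι = -I) : Tendsto (dz ι) (cobounded ℂ) (𝓝[≠] 0) := by
  have h0 := iota_ne hι
  rw [tendsto_nhdsWithin_iff]
  constructor
  · have h1 := L1_cob.div_const (2 * ι)
    rw [zero_div] at h1
    exact h1
  · filter_upwards [ne_cob 1, ne_cob 0] with z hz hz0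
    rw [add_zero] at hz0
    exact div_ne_zero (L1_ne hz0 hz) (mul_ne_zero two_ne_zero h0)

/-- the root at the points `dz` -/
theorem root_z (A : RootA) {s : ℂ} {N : ℕ} {R : ℂ → ℂ} {ε : ℝ} (E : EndI s N (3 * N) R ε) :
    ∀ᶠ z in cobounded ℂ, z ∈ slitPlane →
      dz (s * I) z * ri s N (3 * N) R (0, dz (s * I) z) = (L1 z + L1 (z + 1)) / (2 * (s * I)) := by
  have hι : s * I = I ∨ s * I = -I := by
    rcases E.hs with rfl | rfl
    · left; ring
    · right; ring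
  have hι0 := iota_ne hι
  have hR : AnalyticAt ℂ R 0 := E.dR.analyticAt (isOpen_ball.mem_nhds (mem_ball_self E.hε))
  have hR0 : R 0 ≠ 0 := E.R0 0 (mem_ball_self E.hε)
  have h1 := curry0 (ri_spec A (s := s) (N := N) (k := 3 * N) hR hR0)
  have h2 := ((dz_cob hι).mono_right nhdsWithin_le_nhds).eventually h1
  have h3 : ∀ᶠ z in cobounded ℂ, (L1 z + L1 (z + 1)) / L1 z ∈ ball (2 : ℂ) (1 / 4) :=
    ratio_L1.eventually (ball_mem_nhds _ (by norm_num))
  filter_upwards [h2, h3, ne_cob 1, ne_cob 0, (dz_cob hι).eventually self_mem_nhdsWithin]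
    with z h4 h5 h6 h7 h8 hz
  rw [add_zero] at h7
  have hδ : dz (s * I) z ≠ 0 := h8
  have hL := L1_ne h7 h6
  set x : ℂ := (L1 z + L1 (z + 1)) / L1 z with hx
  have hdx : dz (s * I) z * x = (L1 z + L1 (z + 1)) / (2 * (s * I)) := by
    rw [dz, hx]
    field_simp
  rw [← hdx, ← h4.self_of_nhds.2.2 x h5]
  have e1 : ki s N (3 * N) R (0, dz (s * I) z) = fun v => R 0 * kb (s * I) 3 (dz (s * I) z) v := by
    funext v
    simp only [ki, kb, zero_mul]
    rw [three_div E.hN, show s * I * 3 * (dz (s * I) z * v) = 3 * (s * I * (dz (s * I) z * v)) by ring]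
    ring
  rw [e1, Kint_const_mul, Kint_kb hι (by norm_num) (by norm_num) hδ]
  have e2 : PG (s * I) 3 (dz (s * I) z) x = 0 := by
    rw [PG, iota_x hι hdx, iota_dz hι]
    set q : ℂ := Complex.exp (L1 z + L1 (z + 1)) with hq
    have hqz : q * z = z + 2 := exp_sum hz
    have e4 : Complex.exp ((3 + 1) * ((L1 z + L1 (z + 1)) / 2)) = q ^ 2 := by
      rw [hq, ← Complex.exp_nat_mul]; congr 1; push_cast; ring
    have e5 : Complex.exp ((3 - 1) * ((L1 z + L1 (z + 1)) / 2)) = q := by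
      rw [hq]; congr 1; ring
    rw [e4, e5]
    have e6 : Complex.exp (-(L1 z / 2)) * Complex.exp (L1 z / 2) = 1 := by
      rw [← Complex.exp_add]; simp
    have e7 := E_sq h7 h6
    have e8 : z * (Complex.exp (-(L1 z / 2)) * (q ^ 2 - 1) / (3 + 1) - Complex.exp (L1 z / 2) *
        (q - 1) / (3 - 1)) = 0 := by
      linear_combination (Complex.exp (-(L1 z / 2)) * (q - 1) / 4) * hqz -
        ((q - 1) / 2) * Complex.exp (-(L1 z / 2)) * e7 + ((q - 1) / 2) * z * Complex.exp (L1 z / 2) * e6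
    rw [(mul_eq_zero.1 e8).resolve_left h7, mul_zero]
  rw [e2, mul_zero]

end Vale.Agent.P097.H737
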